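import Mathlib

namespace Vale.Agent.P161

open Real MeasureTheory Filter Topology

noncomputable def sq' (a g : ℝ) : ℝ := √(1 + 2 * a * g + a ^ 2)

noncomputable def Q (a g : ℝ) : ℝ := (2 * g + a) / (1 + sq' a g)

lemma rad_pos {a g : ℝ} (ha : |a| ≤ 1 / 2) (hg : |g| ≤ 1) : 0 < 1 + 2 * a * g + a ^ 2 := by
  have h1 : |a * g| ≤ |a| := by
    rw [abs_mul]; exact mul_le_of_le_one_right (abs_nonneg _) hg
  have h2 := neg_abs_le (a * g)
  have h3 := sq_abs a
  nlinarith [abs_nonneg a]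

lemma sq'_sq {a g : ℝ} (ha : |a| ≤ 1 / 2) (hg : |g| ≤ 1) :
    sq' a g ^ 2 = 1 + 2 * a * g + a ^ 2 := sq_sqrt (rad_pos ha hg).le

lemma sq'_pos {a g : ℝ} (ha : |a| ≤ 1 / 2) (hg : |g| ≤ 1) : 0 < sq' a g :=
  sqrt_pos.2 (rad_pos ha hg)

lemma one_add_Q {a g : ℝ} (ha : |a| ≤ 1 / 2) (hg : |g| ≤ 1) : 1 + a * Q a g = sq' a g := by
  have h1 := sq'_sq ha hg
  have h2 := sq'_pos ha hg
  unfold Q
  field_simp
  nlinarith

lemma Q_eq {a g : ℝ} (ha : |a| ≤ 1 / 2) (hg : |g| ≤ 1) :
    g = Q a g + a * (Q a g ^ 2 - 1) / 2 := by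
  have h1 := one_add_Q ha hg
  have h2 := sq'_pos ha hg
  have h3 : Q a g * (1 + sq' a g) = 2 * g + a := by unfold Q; field_simp
  rw [← h1] at h3
  linarith

lemma Q_abs {a g : ℝ} (ha : |a| ≤ 1 / 2) (hg : |g| ≤ 1) : |Q a g| ≤ 1 := by
  have h1 := one_add_Q ha hg
  have h2 := sq'_pos ha hg
  have h3 := Q_eq ha hg
  rw [← h1] at h2
  rw [abs_le] at ha hg ⊢
  set y := Q a g
  constructor
  · by_contra hc
    have e : g + 1 = (y + 1) * ((1 + a * y) + (1 - a)) / 2 := by rw [h3]; ring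
    have : (y + 1) * ((1 + a * y) + (1 - a)) < 0 :=
      mul_neg_of_neg_of_pos (by linarith) (by linarith)
    linarith
  · by_contra hc
    have e : g - 1 = (y - 1) * ((1 + a * y) + (1 + a)) / 2 := by rw [h3]; ring
    have : 0 < (y - 1) * ((1 + a * y) + (1 + a)) := mul_pos (by linarith) (by linarith)
    linarith

lemma Q_lip {a a' g : ℝ} (ha : |a| ≤ 1 / 2) (ha' : |a'| ≤ 1 / 2) (hg : |g| ≤ 1) :
    |Q a g - Q a' g| ≤ |a - a'| := by
  have h1 := Q_eq ha hg
  have h2 := Q_eq ha' hg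
  have h3 := Q_abs ha hg
  have h4 := Q_abs ha' hg
  set y := Q a g
  set y' := Q a' g
  have e : (y - y') * (1 + a * (y + y') / 2) = (a - a') * ((1 - y' ^ 2) / 2) := by
    linear_combination h2 - h1
  have b1 : |a * (y + y')| ≤ 1 := by
    rw [abs_mul]
    calc |a| * |y + y'| ≤ 1 / 2 * 2 := by
          gcongr; exact (abs_add_le _ _).trans (by linarith)
      _ = 1 := by norm_num
  have b2 : 1 / 2 ≤ 1 + a * (y + y') / 2 := by linarith [neg_abs_le (a * (y + y'))]
  have b3 : y' ^ 2 ≤ 1 := by rw [← sq_abs]; exact pow_le_one₀ (abs_nonneg _) h4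
  have e2 := congrArg abs e
  rw [abs_mul, abs_mul, abs_of_pos (by linarith : 0 < 1 + a * (y + y') / 2),
    abs_of_nonneg (by linarith : 0 ≤ (1 - y' ^ 2) / 2)] at e2
  nlinarith [abs_nonneg (y - y'), abs_nonneg (a - a'), sq_nonneg y']

lemma hasDerivAt_Q {a g : ℝ} (ha : |a| ≤ 1 / 2) (hg : |g| ≤ 1) :
    HasDerivAt (Q a) (1 / sq' a g) g := by
  have h0 := rad_pos ha hg
  have h1 := sq'_sq ha hg
  have h2 := sq'_pos ha hg
  have d1 : HasDerivAt (fun g => 1 + 2 * a * g + a ^ 2) (2 * a) g := by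
    simpa using (((hasDerivAt_id' g).const_mul (2 * a)).const_add 1).add_const (a ^ 2)
  have d2 : HasDerivAt (sq' a) (2 * a / (2 * sq' a g)) g := d1.sqrt h0.ne'
  have d3 : HasDerivAt (fun g => 2 * g + a) 2 g := by
    simpa using ((hasDerivAt_id' g).const_mul 2).add_const a
  have d4 := d3.fun_div (d2.const_add 1) (by linarith)
  refine d4.congr_deriv ?_
  field_simp
  nlinarith

lemma continuous_Q : Continuous fun p : ℝ × ℝ => Q p.1 p.2 := by
  unfold Q sq'
  refine Continuous.div (by fun_prop) (by fun_prop) fun p => ?_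
  positivity

def clip (m : ℝ) : ℝ := max (-1) (min 1 m)

lemma clip_abs (m : ℝ) : |clip m| ≤ 1 := by
  unfold clip; rw [abs_le]; constructor
  · exact le_max_left _ _
  · exact max_le (by norm_num) (min_le_left _ _)

lemma clip_eq {m : ℝ} (h : |m| ≤ 1) : clip m = m := by
  rw [abs_le] at h
  unfold clip; rw [min_eq_right h.2, max_eq_right h.1]

noncomputable def obs (m : ℝ) (u : unitInterval) : ℝ := Q (clip m / 2) (2 * u - 1)

lemma g_abs (u : unitInterval) : |2 * (u : ℝ) - 1| ≤ 1 := by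
  rw [abs_le]; constructor <;> linarith [u.2.1, u.2.2]

lemma half_abs {m : ℝ} (h : |m| ≤ 1) : |m / 2| ≤ 1 / 2 := by
  rw [abs_div, abs_two]; linarith

lemma obs_abs (m : ℝ) (u : unitInterval) : |obs m u| ≤ 1 :=
  Q_abs (half_abs (clip_abs m)) (g_abs u)

lemma measurable_obs : Measurable fun p : ℝ × unitInterval => obs p.1 p.2 := by
  have : Continuous fun p : ℝ × unitInterval => obs p.1 p.2 := by
    unfold obs clip
    exact continuous_Q.comp (f := fun p : ℝ × unitInterval =>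
      (max (-1) (min 1 p.1) / 2, 2 * (p.2 : ℝ) - 1)) (by fun_prop)
  exact this.measurable

lemma integral_unit {k : ℝ → ℝ} (hk : Measurable k) :
    ∫ u : unitInterval, k u = ∫ x in (0 : ℝ)..1, k x := by
  rw [intervalIntegral.integral_of_le zero_le_one, ← integral_Icc_eq_integral_Ioc,
    ← unitInterval.measurePreserving_coe.map_eq,
    integral_map unitInterval.measurePreserving_coe.measurable.aemeasurable
      hk.aestronglyMeasurable]

lemma obs_mart {m : ℝ} (hm : |m| ≤ 1) (α β : ℝ) :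
    ∫ u : unitInterval, (α + β * obs m u) / (1 + m / 2 * obs m u) = α := by
  have ha := half_abs hm
  set a := m / 2 with ha'
  have hc : Continuous fun x : ℝ => Q a (2 * x - 1) :=
    continuous_Q.comp (f := fun x : ℝ => (a, 2 * x - 1)) (by fun_prop)
  simp only [obs, clip_eq hm, ← ha']
  rw [integral_unit (k := fun x => (α + β * Q a (2 * x - 1)) / (1 + a * Q a (2 * x - 1)))
    (by have := hc.measurable; fun_prop)]
  have hg : ∀ x ∈ Set.uIcc (0 : ℝ) 1, |2 * x - 1| ≤ 1 := by
    intro x hx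
    rw [Set.uIcc_of_le zero_le_one] at hx
    rw [abs_le]; constructor <;> linarith [hx.1, hx.2]
  rw [intervalIntegral.integral_eq_sub_of_hasDerivAt
    (f := fun x => (α * Q a (2 * x - 1) + β * Q a (2 * x - 1) ^ 2 / 2) / 2)]
  · have e1 : Q a (2 * 1 - 1) = 1 := by
      have : sq' a (2 * 1 - 1) = 1 + a := by
        unfold sq'
        rw [show 1 + 2 * a * (2 * 1 - 1) + a ^ 2 = (1 + a) ^ 2 by ring,
          sqrt_sq (by linarith [(abs_le.1 ha).1])]
      unfold Q; rw [this, div_eq_one_iff_eq (by linarith [(abs_le.1 ha).1])]; ring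
    have e2 : Q a (2 * 0 - 1) = -1 := by
      have : sq' a (2 * 0 - 1) = 1 - a := by
        unfold sq'
        rw [show 1 + 2 * a * (2 * 0 - 1) + a ^ 2 = (1 - a) ^ 2 by ring,
          sqrt_sq (by linarith [(abs_le.1 ha).2])]
      unfold Q; rw [this, div_eq_iff (by linarith [(abs_le.1 ha).2])]; ring
    simp only [e1, e2]; ring
  · intro x hx
    have d0 : HasDerivAt (fun x : ℝ => 2 * x - 1) 2 x := by
      simpa using ((hasDerivAt_id' x).const_mul 2).sub_const 1
    have d1 : HasDerivAt (fun x : ℝ => Q a (2 * x - 1)) (1 / sq' a (2 * x - 1) * 2) x :=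
      HasDerivAt.comp (h₂ := Q a) (h := fun x : ℝ => 2 * x - 1) x (hasDerivAt_Q ha (hg x hx)) d0
    have d2 := ((d1.const_mul α).fun_add (((d1.fun_pow 2).const_mul β).div_const 2)).div_const 2
    refine d2.congr_deriv ?_
    rw [one_add_Q ha (hg x hx)]
    have := sq'_pos ha (hg x hx)
    field_simp
    ring
  · refine ContinuousOn.intervalIntegrable (ContinuousOn.div
      ((hc.const_mul β).const_add α).continuousOn ((hc.const_mul a).const_add 1).continuousOn ?_)
    intro x hx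
    rw [one_add_Q ha (hg x hx)]
    exact (sq'_pos ha (hg x hx)).ne'

noncomputable def gain (m : ℝ) (u : unitInterval) : ℝ := obs m u / 2 / (1 + m / 2 * obs m u)

lemma den_ge {m y : ℝ} (hm : |m| ≤ 1) (hy : |y| ≤ 1) : 1 / 2 ≤ 1 + m / 2 * y ∧
    1 + m / 2 * y ≤ 3 / 2 := by
  have : |m / 2 * y| ≤ 1 / 2 := by
    rw [abs_mul]
    calc |m / 2| * |y| ≤ 1 / 2 * 1 := by gcongr; exact half_abs hm
      _ = _ := by norm_num
  rw [abs_le] at this
  constructor <;> linarith [this.1, this.2]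

lemma gain_abs {m : ℝ} (hm : |m| ≤ 1) (u : unitInterval) : |gain m u| ≤ 1 := by
  have h1 := obs_abs m u
  have h2 := (den_ge hm h1).1
  unfold gain
  rw [abs_div, abs_div, abs_two, abs_of_pos (by linarith : 0 < 1 + m / 2 * obs m u),
    div_le_one (by linarith)]
  linarith

lemma gain_lip {m m' : ℝ} (hm : |m| ≤ 1) (hm' : |m'| ≤ 1) (u : unitInterval) :
    |gain m u - gain m' u| ≤ 2 * |m - m'| := by
  have h1 := obs_abs m u
  have h1' := obs_abs m' u
  have h2 := (den_ge hm h1).1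
  have h2' := (den_ge hm' h1').1
  have h3 : |obs m u - obs m' u| ≤ |m - m'| / 2 := by
    unfold obs
    rw [clip_eq hm, clip_eq hm']
    refine (Q_lip (half_abs hm) (half_abs hm') (g_abs u)).trans (le_of_eq ?_)
    rw [← sub_div, abs_div, abs_two]
  unfold gain
  set y := obs m u
  set y' := obs m' u
  have e : y / 2 / (1 + m / 2 * y) - y' / 2 / (1 + m' / 2 * y') =
      ((y - y') / 2 - (m - m') * (y * y') / 4) / ((1 + m / 2 * y) * (1 + m' / 2 * y')) := by
    rw [div_sub_div _ _ (by linarith) (by linarith)]; congr 1; ring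
  have h4 : 1 / 4 ≤ (1 + m / 2 * y) * (1 + m' / 2 * y') := by nlinarith
  rw [e, abs_div, abs_of_pos (by linarith : 0 < (1 + m / 2 * y) * (1 + m' / 2 * y')),
    div_le_iff₀ (by linarith)]
  have h5 : |(m - m') * (y * y')| ≤ |m - m'| := by
    rw [abs_mul, abs_mul]
    exact mul_le_of_le_one_right (abs_nonneg _) (mul_le_one₀ h1 (abs_nonneg _) h1')
  have h6 : |(y - y') / 2 - (m - m') * (y * y') / 4| ≤ |m - m'| / 2 := by
    refine (abs_sub _ _).trans ?_
    rw [abs_div, abs_div, abs_two, show |(4 : ℝ)| = 4 by norm_num]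
    linarith
  nlinarith [abs_nonneg (m - m')]

lemma gain_lower {m : ℝ} (hm : |m| ≤ 1) : 1 / 100 ≤ ∫ u : unitInterval, gain m u ^ 2 := by
  have h1 : ∫ u : unitInterval, ((2 * (u : ℝ) - 1) ^ 2 / 18 - 1 / 144) = 1 / 54 - 1 / 144 := by
    rw [integral_unit (k := fun x => (2 * x - 1) ^ 2 / 18 - 1 / 144) (by fun_prop),
      intervalIntegral.integral_eq_sub_of_hasDerivAt
        (f := fun x => (2 * x - 1) ^ 3 / 108 - x / 144)]
    · norm_num
    · intro x _
      have d0 : HasDerivAt (fun x : ℝ => 2 * x - 1) 2 x := by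
        simpa using ((hasDerivAt_id' x).const_mul 2).sub_const 1
      refine (((d0.fun_pow 3).div_const 108).fun_sub
        ((hasDerivAt_id' x).div_const 144)).congr_deriv ?_
      norm_num; ring
    · exact Continuous.intervalIntegrable (by fun_prop) _ _
  have hmeas : Measurable fun u : unitInterval => gain m u ^ 2 := by
    have := measurable_obs.comp (measurable_prodMk_left (x := m))
    unfold gain
    exact ((this.div_const 2).div ((this.const_mul _).const_add 1)).pow_const 2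
  refine le_trans (by norm_num) (h1.symm.le.trans (integral_mono ?_ ?_ fun u => ?_))
  · refine Integrable.of_bound (by fun_prop) 1 (Eventually.of_forall fun u => ?_)
    have := g_abs u
    have h2 : (2 * (u : ℝ) - 1) ^ 2 ≤ 1 := by
      rw [← sq_abs]; exact pow_le_one₀ (abs_nonneg _) this
    rw [Real.norm_eq_abs, abs_le]
    constructor <;> nlinarith [sq_nonneg (2 * (u : ℝ) - 1)]
  · refine Integrable.of_bound hmeas.aestronglyMeasurable 1 (Eventually.of_forall fun u => ?_)
    rw [Real.norm_eq_abs, abs_pow]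
    exact pow_le_one₀ (abs_nonneg _) (gain_abs hm u)
  · have h2 := obs_abs m u
    have h3 := den_ge hm h2
    have h4 := Q_eq (half_abs hm) (g_abs u)
    have h5 : obs m u = Q (m / 2) (2 * u - 1) := by rw [obs, clip_eq hm]
    rw [← h5] at h4
    simp only [gain]
    set y := obs m u
    have b3 : y ^ 2 ≤ 1 := by rw [← sq_abs]; exact pow_le_one₀ (abs_nonneg _) h2
    have b4 : |m / 2 * (y ^ 2 - 1) / 2| ≤ 1 / 4 := by
      rw [abs_div, abs_mul, abs_two, abs_of_nonpos (by linarith : y ^ 2 - 1 ≤ 0)]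
      have := half_abs hm
      nlinarith [abs_nonneg (m / 2), sq_nonneg y]
    have b5 : (2 * (u : ℝ) - 1) ^ 2 ≤ 2 * y ^ 2 + 1 / 8 := by
      rw [h4]
      have := sq_le_sq' (abs_le.1 b4).1 (abs_le.1 b4).2
      nlinarith [sq_nonneg (y - m / 2 * (y ^ 2 - 1) / 2)]
    have b6 : y ^ 2 / 9 ≤ (y / 2 / (1 + m / 2 * y)) ^ 2 := by
      rw [div_pow, le_div_iff₀ (by nlinarith)]
      have : (1 + m / 2 * y) ^ 2 ≤ 9 / 4 := by nlinarith
      nlinarith [sq_nonneg y]
    linarith

end Vale.Agent.P161
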