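import Mathlib

namespace Vale.Agent.P161

open MeasureTheory
open scoped Classical

/-- The spin `+1` is `true`, the spin `-1` is `false`. -/
def spin (b : Bool) : ℝ := if b then 1 else -1

/-- `μ` is the free zero-field Ising measure with parameter `θ` on the tree `G`: for every finite
connected subtree `D`, `μ(σ|_D = η) = (1/2) ∏_{uv ∈ E(D)} (1 + θ η_u η_v)/2`. -/
def IsFreeIsing {V : Type*} (G : SimpleGraph V) (θ : ℝ) (μ : Measure (V → Bool)) : Prop :=
  IsProbabilityMeasure μ ∧
    ∀ D : Finset V, (G.induce (D : Set V)).Connected → ∀ η : V → Bool,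
      μ.real {σ | ∀ v ∈ D, σ v = η v} =
        1 / 2 * ∏ e ∈ D.sym2.filter (fun e => e ∈ G.edgeSet),
          (1 + θ * (e.map fun v => spin (η v)).mul) / 2

/-- `ν` is a factor of IID on `G`. -/
def IsFactorOfIID {V : Type*} (G : SimpleGraph V) (ν : Measure (V → Bool)) : Prop :=
  ∃ Φ : (V → unitInterval) → (V → Bool), Measurable Φ ∧
    (Measure.infinitePi fun _ : V => (volume : Measure unitInterval)).map Φ = ν ∧
    ∀ g : G ≃g G, ∀ᵐ U ∂(Measure.infinitePi fun _ : V => (volume : Measure unitInterval)),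
      Φ (fun v => U (g.symm v)) = fun v => Φ U (g.symm v)

end Vale.Agent.P161
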