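import Vale.Agent.P161.Post
import Vale.Agent.P161.Chan

namespace Vale.Agent.P161

open MeasureTheory Filter Topology Finset
open scoped Classical

variable {V : Type*}

noncomputable def Ys (μ : Measure (V → Bool)) (ε : unitInterval) (τ : V × ℕ → ℝ)
    (g : V × ℕ → unitInterval) (B : Finset (V × ℕ)) (i : V × ℕ) : ℝ :=
  ε * obs (ε * mag μ B
    (fun j => if _h : j ∈ B then Ys μ ε τ g (B.filter fun l => τ l < τ j) j else 0) i.1) (g i)
termination_by B.card
decreasing_by exact card_lt_card (filter_ssubset.2 ⟨j, _h, lt_irrefl _⟩)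

noncomputable def ys (μ : Measure (V → Bool)) (ε : unitInterval) (τ : V × ℕ → ℝ)
    (g : V × ℕ → unitInterval) (B : Finset (V × ℕ)) (j : V × ℕ) : ℝ :=
  if j ∈ B then Ys μ ε τ g (B.filter fun l => τ l < τ j) j else 0

noncomputable def pst (μ : Measure (V → Bool)) (ε : unitInterval) (τ : V × ℕ → ℝ)
    (B : Finset (V × ℕ)) (ψ : (V → Bool) → ℝ) (g : V × ℕ → unitInterval) : ℝ := post μ B (ys μ ε τ g B) ψ

noncomputable def M (μ : Measure (V → Bool)) (ε : unitInterval) (τ : V × ℕ → ℝ)
    (B : Finset (V × ℕ)) (v : V) (g : V × ℕ → unitInterval) : ℝ := pst μ ε τ B (fun σ => spin (σ v)) g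

variable {μ : Measure (V → Bool)} {ε : unitInterval} {τ : V × ℕ → ℝ} {g : V × ℕ → unitInterval}
  {B : Finset (V × ℕ)} {i : V × ℕ}

lemma eps_mul (ε : unitInterval) {m : ℝ} (hm : |m| ≤ 1) : |ε * m| ≤ 1 := by
  rw [abs_mul, abs_of_nonneg ε.2.1]
  exact mul_le_one₀ ε.2.2 (abs_nonneg _) hm

lemma Ys_eq : Ys μ ε τ g B i = ε * obs (ε * M μ ε τ B i.1 g) (g i) := by
  rw [Ys]; rfl

lemma ys_abs (j : V × ℕ) : |ys μ ε τ g B j| ≤ 1 := by
  unfold ys
  split_ifs
  · rw [Ys_eq]; exact eps_mul ε (obs_abs _ _)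
  · simp

lemma pst_congr {g' : V × ℕ → unitInterval} (h : ∀ j ∈ B, g j = g' j) (ψ : (V → Bool) → ℝ) :
    pst μ ε τ B ψ g = pst μ ε τ B ψ g' := by
  induction B using Finset.strongInduction generalizing ψ with
  | H B ih =>
    refine post_congr (fun j hj => ?_) ψ
    simp only [ys, if_pos hj, Ys_eq, M, h j hj]
    rw [ih (B.filter fun l => τ l < τ j) (filter_ssubset.2 ⟨j, hj, lt_irrefl (τ j)⟩)
      fun l hl => h l (mem_filter.1 hl).1]

lemma pst_update (hi : i ∉ B) (ψ : (V → Bool) → ℝ) (u : unitInterval) :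
    pst μ ε τ B ψ (Function.update g i u) = pst μ ε τ B ψ g :=
  pst_congr (fun j hj => Function.update_of_ne (ne_of_mem_of_not_mem hj hi) _ _) ψ

lemma meas_filter {Ω ι : Type*} [MeasurableSpace Ω] (A : Finset ι) {p : Ω → ι → Prop}
    (hp : ∀ l, Measurable fun ω => p ω l) {F : Finset ι → Ω → ℝ}
    (hF : ∀ C ⊆ A, Measurable (F C)) : Measurable fun ω => F (A.filter (p ω)) ω := by
  have : (fun ω => F (A.filter (p ω)) ω) =
      fun ω => ∑ C ∈ A.powerset, if ∀ l ∈ A, (l ∈ C ↔ p ω l) then F C ω else 0 := by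
    funext ω
    rw [sum_eq_single_of_mem (A.filter (p ω)) (mem_powerset.2 (filter_subset _ _)), if_pos]
    · intro l hl; simp [hl]
    · intro C hC hne
      refine if_neg fun h => hne ?_
      ext l
      rw [mem_filter]
      exact ⟨fun hl => ⟨mem_powerset.1 hC hl, (h l (mem_powerset.1 hC hl)).1 hl⟩,
        fun hl => (h l hl.1).2 hl.2⟩
  rw [this]
  refine Finset.measurable_sum _ fun C hC => Measurable.ite (Measurable.setOf ?_)
    (hF C (mem_powerset.1 hC)) measurable_const
  simp only [← Finset.mem_coe (s := A)]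
  refine measurableSet_setOfPred.1 ?_
  have : {ω | ∀ l ∈ (A : Set ι), (l ∈ C ↔ p ω l)} = ⋂ l ∈ (A : Set ι), {ω | l ∈ C ↔ p ω l} := by
    ext; simp
  rw [this]
  exact MeasurableSet.biInter A.countable_toSet fun l _ =>
    (Measurable.iff measurable_const (hp l)).setOf

variable [IsProbabilityMeasure μ]

lemma measurable_post (B : Finset (V × ℕ)) {ψ : (V → Bool) → ℝ} (hψ : Measurable ψ) :
    Measurable fun y => post μ B y ψ := by
  have hs : ∀ v : V, Measurable fun σ : V → Bool => spin (σ v) := fun v => (FDep.spin v).measurable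
  have hw : Measurable fun p : (V × ℕ → ℝ) × (V → Bool) => wgt B p.1 p.2 :=
    Finset.measurable_prod _ fun i _ => measurable_const.add
      ((((measurable_pi_apply i).comp measurable_fst).div_const 2).mul
        ((hs i.1).comp measurable_snd))
  exact (((hψ.comp measurable_snd).mul hw).stronglyMeasurable.integral_prod_right'
    (ν := μ)).measurable.div (hw.stronglyMeasurable.integral_prod_right' (ν := μ)).measurable

lemma measurable_pst {Ω : Type*} [MeasurableSpace Ω] {τ : Ω → V × ℕ → ℝ} (hτ : Measurable τ)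
    {g : Ω → V × ℕ → unitInterval} (hg : Measurable g) (B : Finset (V × ℕ))
    {ψ : (V → Bool) → ℝ} (hψ : Measurable ψ) : Measurable fun ω => pst μ ε (τ ω) B ψ (g ω) := by
  induction B using Finset.strongInduction generalizing ψ with
  | H B ih =>
    refine (measurable_post B hψ).comp (measurable_pi_iff.2 fun j => ?_)
    unfold ys
    split_ifs with hj
    swap
    · exact measurable_const
    simp only [Ys_eq]
    have e : ∀ ω, (B.filter fun l => τ ω l < τ ω j) = (B.erase j).filter fun l => τ ω l < τ ω j := by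
      intro ω; ext l
      simp only [mem_filter, mem_erase]
      exact ⟨fun h => ⟨⟨fun e => (e ▸ h.2).false, h.1⟩, h.2⟩, fun h => ⟨h.1.2, h.2⟩⟩
    simp only [e]
    refine (measurable_obs.comp (Measurable.prodMk (Measurable.const_mul ?_ _)
      ((measurable_pi_apply j).comp hg))).const_mul _
    refine meas_filter (B.erase j) (p := fun ω l => τ ω l < τ ω j)
      (F := fun C ω => M μ ε (τ ω) C j.1 (g ω)) (fun l => ?_) fun C hC => ?_
    · exact measurableSet_setOfPred.1 (measurableSet_lt ((measurable_pi_apply l).comp hτ)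
        ((measurable_pi_apply j).comp hτ))
    · exact ih C (Finset.ssubset_of_subset_of_ssubset hC (erase_ssubset hj)) (FDep.spin _).measurable

lemma measurable_pst' (τ : V × ℕ → ℝ) (B : Finset (V × ℕ)) {ψ : (V → Bool) → ℝ} (hψ : FDep ψ) :
    Measurable (pst μ ε τ B ψ) :=
  measurable_pst measurable_const measurable_id B hψ.measurable

lemma measurable_M (τ : V × ℕ → ℝ) (B : Finset (V × ℕ)) (v : V) : Measurable (M μ ε τ B v) :=
  measurable_pst' τ B (FDep.spin v)

lemma M_abs (v : V) : |M μ ε τ B v g| ≤ 1 := mag_abs ys_abs v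

lemma pst_insert (hi : i ∉ B) (hl : ∀ j ∈ B, τ j < τ i) {ψ : (V → Bool) → ℝ} (h : FDep ψ) :
    pst μ ε τ (insert i B) ψ g =
      (pst μ ε τ B ψ g + ε * pst μ ε τ B (fun σ => ψ σ * spin (σ i.1)) g / 2 *
        obs (ε * M μ ε τ B i.1 g) (g i)) /
          (1 + ε * M μ ε τ B i.1 g / 2 * obs (ε * M μ ε τ B i.1 g) (g i)) := by
  have h1 : ∀ j ∈ B, ys μ ε τ g (insert i B) j = ys μ ε τ g B j := by
    intro j hj
    rw [ys, ys, if_pos hj, if_pos (mem_insert_of_mem hj), filter_insert,
      if_neg (hl j hj).not_gt]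
  have h2 : ys μ ε τ g (insert i B) i = ε * obs (ε * M μ ε τ B i.1 g) (g i) := by
    rw [ys, if_pos (mem_insert_self _ _), filter_insert, if_neg (lt_irrefl _),
      filter_true_of_mem hl, Ys_eq]
  rw [pst, post_insert ys_abs hi h, h2, mag, post_congr h1, post_congr h1, post_congr h1]
  simp only [M, pst]
  congr 1 <;> ring

lemma M_insert (hi : i ∉ B) (hl : ∀ j ∈ B, τ j < τ i) (v : V) :
    M μ ε τ (insert i B) v g = M μ ε τ B v g +
      ε * cov μ B (ys μ ε τ g B) v i.1 * gain (ε * M μ ε τ B i.1 g) (g i) := by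
  have := (den_ge (eps_mul ε (M_abs (μ := μ) (ε := ε) (τ := τ) (g := g) (B := B) i.1))
    (obs_abs (ε * M μ ε τ B i.1 g) (g i))).1
  rw [M, pst_insert hi hl (FDep.spin v), gain, div_eq_iff (by linarith), add_mul, mul_assoc _ (_ / _),
    div_mul_cancel₀ _ (by linarith)]
  simp only [cov, M, pst, mag]
  ring

noncomputable def PN (V : Type*) : Measure (V × ℕ → unitInterval) :=
  Measure.infinitePi fun _ => volume

instance : IsProbabilityMeasure (PN V) := by unfold PN; infer_instance

lemma map_update {ι X : Type*} [DecidableEq ι] [MeasurableSpace X] (ζ : Measure X) [IsProbabilityMeasure ζ]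
    (i : ι) : ((Measure.infinitePi fun _ : ι => ζ).prod ζ).map
      (fun p => Function.update p.1 i p.2) = Measure.infinitePi fun _ : ι => ζ := by
  refine Measure.eq_infinitePi _ fun s t ht => ?_
  rw [Measure.map_apply measurable_update' (MeasurableSet.pi s.countable_toSet fun j _ => ht j)]
  by_cases hi : i ∈ s
  · have : (fun p : (ι → X) × X => Function.update p.1 i p.2) ⁻¹' Set.pi (s : Set ι) t =
        Set.pi (s.erase i : Set ι) t ×ˢ t i := by
      ext p
      simp only [Set.mem_preimage, Set.mem_pi, mem_coe, Set.mem_prod, mem_erase]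
      constructor
      · intro h
        exact ⟨fun j hj => by simpa [Function.update_of_ne hj.1] using h j hj.2,
          by simpa using h i hi⟩
      · rintro ⟨h1, h2⟩ j hj
        by_cases e : j = i
        · subst e; simpa using h2
        · simpa [Function.update_of_ne e] using h1 j ⟨e, hj⟩
    rw [this, Measure.prod_prod, Measure.infinitePi_pi _ fun j _ => ht j, prod_erase_mul _ _ hi]
  · have : (fun p : (ι → X) × X => Function.update p.1 i p.2) ⁻¹' Set.pi (s : Set ι) t =
        Set.pi (s : Set ι) t ×ˢ Set.univ := by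
      ext p
      simp only [Set.mem_preimage, Set.mem_pi, mem_coe, Set.mem_prod, Set.mem_univ, and_true]
      exact forall₂_congr fun j hj => by rw [Function.update_of_ne (ne_of_mem_of_not_mem hj hi)]
    rw [this, Measure.prod_prod, Measure.infinitePi_pi _ fun j _ => ht j, measure_univ, mul_one]

lemma ibdd {Ω : Type*} [MeasurableSpace Ω] {P : Measure Ω} [IsFiniteMeasure P] {k : Ω → ℝ}
    (hk : Measurable k) {C : ℝ} (hC : ∀ y, |k y| ≤ C) : Integrable k P :=
  Integrable.of_bound hk.aestronglyMeasurable C (Eventually.of_forall hC)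

lemma integral_update (i : V × ℕ) {F : (V × ℕ → unitInterval) → ℝ} (hF : Measurable F) {C : ℝ}
    (hC : ∀ g, |F g| ≤ C) :
    ∫ g, F g ∂PN V = ∫ g, ∫ u, F (Function.update g i u) ∂volume ∂PN V := by
  have hm : Measurable fun p : (V × ℕ → unitInterval) × unitInterval =>
      Function.update p.1 i p.2 := measurable_update'
  conv_lhs => rw [PN, ← map_update volume i]
  rw [integral_map hm.aemeasurable hF.aestronglyMeasurable, integral_prod]
  · rfl
  · exact ibdd (hF.comp hm) fun _ => hC _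

lemma step_mart (hi : i ∉ B) (hl : ∀ j ∈ B, τ j < τ i) {ψ : (V → Bool) → ℝ} (h : FDep ψ)
    (h1 : ∀ σ, |ψ σ| ≤ 1) {F : (V × ℕ → unitInterval) → ℝ} (hF : Measurable F) {C : ℝ}
    (hC : ∀ g, |F g| ≤ C) (hinv : ∀ g u, F (Function.update g i u) = F g) :
    ∫ g, F g * pst μ ε τ (insert i B) ψ g ∂PN V = ∫ g, F g * pst μ ε τ B ψ g ∂PN V := by
  rw [integral_update i (F := fun g => F g * pst μ ε τ (insert i B) ψ g)
    (hF.mul (measurable_pst' τ _ h)) (C := C * 1) fun g => by
    rw [abs_mul]
    exact mul_le_mul (hC g) (post_abs ys_abs h h1) (abs_nonneg _) ((abs_nonneg _).trans (hC g))]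
  congr 1; funext g
  simp only [hinv, pst_insert hi hl h, M, pst_update hi, Function.update_self]
  rw [integral_const_mul]
  congr 1
  exact obs_mart (eps_mul ε (M_abs i.1)) _ _

lemma lt_of_inj (hτ : Function.Injective τ) (hi : i ∉ B) (h : ∀ j ∈ B, τ j ≤ τ i) :
    ∀ j ∈ B, τ j < τ i := fun j hj =>
  (h j hj).lt_of_ne fun e => hi (hτ e ▸ hj)

lemma mart_total (hτ : Function.Injective τ) {ψ : (V → Bool) → ℝ} (h : FDep ψ)
    (h1 : ∀ σ, |ψ σ| ≤ 1) (A : Finset (V × ℕ)) : ∫ g, pst μ ε τ A ψ g ∂PN V = ∫ σ, ψ σ ∂μ := by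
  induction A using Finset.induction_on_max_value τ with
  | empty => simp [pst, post, wgt]
  | insert i B hi hl ih =>
    have := step_mart (μ := μ) (ε := ε) hi (lt_of_inj hτ hi hl) h h1 (F := fun _ => 1) measurable_const
      (C := 1) (by simp) fun _ _ => rfl
    simp only [one_mul] at this
    rw [this, ih]

lemma mart_seg (hτ : Function.Injective τ) {ψ : (V → Bool) → ℝ} (h : FDep ψ)
    (h1 : ∀ σ, |ψ σ| ≤ 1) (t : ℝ) {F : (V × ℕ → unitInterval) → ℝ} (hF : Measurable F) {C : ℝ}
    (hC : ∀ g, |F g| ≤ C) (hinv : ∀ i, t ≤ τ i → ∀ g u, F (Function.update g i u) = F g)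
    (A : Finset (V × ℕ)) :
    ∫ g, F g * pst μ ε τ A ψ g ∂PN V = ∫ g, F g * pst μ ε τ (A.filter fun j => τ j < t) ψ g ∂PN V := by
  induction A using Finset.induction_on_max_value τ with
  | empty => simp
  | insert i B hi hl ih =>
    by_cases c : τ i < t
    · rw [filter_true_of_mem]
      intro j hj
      rcases mem_insert.1 hj with rfl | hj
      · exact c
      · exact (hl j hj).trans_lt c
    · rw [filter_insert, if_neg c, step_mart hi (lt_of_inj hτ hi hl) h h1 hF hC
        (hinv i (not_lt.1 c)), ih]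

omit [IsProbabilityMeasure μ] in
lemma telescope (hτ : Function.Injective τ) (f : Finset (V × ℕ) → ℝ)
    (b : V × ℕ → Finset (V × ℕ) → ℝ)
    (h : ∀ i B, i ∉ B → (∀ j ∈ B, τ j < τ i) → f (insert i B) ≤ f B + b i B) (t : ℝ)
    (A : Finset (V × ℕ)) :
    f A ≤ f (A.filter fun j => τ j < t) +
      ∑ i ∈ A.filter (fun j => t ≤ τ j), b i (A.filter fun j => τ j < τ i) := by
  induction A using Finset.induction_on_max_value τ with
  | empty => simp
  | insert i B hi hl ih =>
    have hl' := lt_of_inj hτ hi hl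
    by_cases c : τ i < t
    · have hall : ∀ j ∈ insert i B, τ j < t := by
        intro j hj
        rcases mem_insert.1 hj with rfl | hj
        · exact c
        · exact (hl j hj).trans_lt c
      rw [filter_true_of_mem hall, filter_false_of_mem fun j hj => (hall j hj).not_ge]
      simp
    · rw [filter_insert, if_neg c, filter_insert, if_pos (not_lt.1 c),
        sum_insert fun h => hi (mem_filter.1 h).1, filter_insert, if_neg (lt_irrefl _),
        filter_true_of_mem hl']
      have e : ∑ j ∈ B.filter (fun j => t ≤ τ j), b j ((insert i B).filter fun l => τ l < τ j) =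
          ∑ j ∈ B.filter (fun j => t ≤ τ j), b j (B.filter fun l => τ l < τ j) :=
        sum_congr rfl fun j hj => by
          rw [filter_insert, if_neg (hl' j (mem_filter.1 hj).1).not_gt]
      rw [e]
      linarith [h i B hi hl']

omit [IsProbabilityMeasure μ] in
lemma sq_step {Ω : Type*} [MeasurableSpace Ω] {P : Measure Ω} [IsFiniteMeasure P] {a b : Ω → ℝ}
    (ha : Measurable a) (hb : Measurable b) (ha' : ∀ ω, |a ω| ≤ 2) (hb' : ∀ ω, |b ω| ≤ 2)
    (h : ∫ ω, a ω * b ω ∂P = ∫ ω, a ω * a ω ∂P) :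
    ∫ ω, b ω ^ 2 ∂P = ∫ ω, a ω ^ 2 ∂P + ∫ ω, (b ω - a ω) ^ 2 ∂P := by
  have im : ∀ {a b : Ω → ℝ}, Measurable a → Measurable b → (∀ ω, |a ω| ≤ 2) → (∀ ω, |b ω| ≤ 2) →
      Integrable (fun ω => a ω * b ω) P := fun ha hb ha' hb' =>
    ibdd (ha.mul hb) (C := 2 * 2) fun ω => by
      rw [abs_mul]; exact mul_le_mul (ha' ω) (hb' ω) (abs_nonneg _) (by norm_num)
  have e : ∀ ω, (b ω - a ω) ^ 2 = b ω * b ω - 2 * (a ω * b ω) + a ω * a ω := fun ω => by ring
  simp only [e, sq]
  have i1 := im hb hb hb' hb'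
  have i2 := (im ha hb ha' hb').const_mul 2
  have i3 : Integrable (fun ω => b ω * b ω - 2 * (a ω * b ω)) P := i1.sub i2
  rw [integral_add i3 (im ha ha ha' ha'), integral_sub i1 i2, integral_const_mul, h]
  ring

end Vale.Agent.P161
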