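import Vale.Agent.P161.Dyn

namespace Vale.Agent.P161

open MeasureTheory Filter Topology Finset
open scoped Classical

variable {V : Type*}

noncomputable def Del (μ : Measure (V → Bool)) (ε : unitInterval) (τ : V × ℕ → ℝ) (D : Set V)
    (B : Finset (V × ℕ)) (v : V) : ℝ :=
  ∫ g, (M μ ε τ (B.filter fun j => j.1 ∈ D) v g - M μ ε τ B v g) ^ 2 ∂PN V

noncomputable def Sq (μ : Measure (V → Bool)) (ε : unitInterval) (τ : V × ℕ → ℝ)
    (B : Finset (V × ℕ)) (v : V) : ℝ := ∫ g, M μ ε τ B v g ^ 2 ∂PN V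

def Sched (τ : V × ℕ → ℝ) : Prop :=
  Function.Injective τ ∧ ∀ i, (i.2 : ℝ) ≤ τ i ∧ τ i < i.2 + 1

lemma sqle {a b : ℝ} (h : |a| ≤ b) : a ^ 2 ≤ b ^ 2 := by
  rw [← sq_abs]; exact pow_le_pow_left₀ (abs_nonneg _) h 2

variable {μ : Measure (V → Bool)} [IsProbabilityMeasure μ] {ε : unitInterval} {τ : V × ℕ → ℝ}
  {B : Finset (V × ℕ)} {i : V × ℕ}

lemma M_sub_abs (B B' : Finset (V × ℕ)) (v : V) (g : V × ℕ → unitInterval) :
    |M μ ε τ B v g - M μ ε τ B' v g| ≤ 2 :=
  (abs_sub _ _).trans (by linarith [@M_abs V μ ε τ g B _ v, @M_abs V μ ε τ g B' _ v])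

lemma int_dsq (B B' : Finset (V × ℕ)) (v : V) :
    Integrable (fun g => (M μ ε τ B v g - M μ ε τ B' v g) ^ 2) (PN V) :=
  ibdd (((measurable_M τ B v).sub (measurable_M τ B' v)).pow_const 2) (C := 2 ^ 2) fun g => by
    rw [abs_of_nonneg (sq_nonneg _)]; exact sqle (M_sub_abs B B' v g)

lemma int_mulM {F : (V × ℕ → unitInterval) → ℝ} (hF : Measurable F) (hC : ∀ g, |F g| ≤ 2)
    (B : Finset (V × ℕ)) (v : V) : Integrable (fun g => F g * M μ ε τ B v g) (PN V) :=
  ibdd (hF.mul (measurable_M τ B v)) (C := 2 * 1) fun g => by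
    rw [abs_mul]; exact mul_le_mul (hC g) (M_abs v) (abs_nonneg _) (by norm_num)

lemma mart_M (hi : i ∉ B) (hl : ∀ j ∈ B, τ j < τ i) (v : V) {F : (V × ℕ → unitInterval) → ℝ}
    (hF : Measurable F) (hC : ∀ g, |F g| ≤ 2) (hinv : ∀ g u, F (Function.update g i u) = F g) :
    ∫ g, F g * M μ ε τ (insert i B) v g ∂PN V = ∫ g, F g * M μ ε τ B v g ∂PN V :=
  step_mart hi hl (FDep.spin v) (fun _ => (spin_abs _).le) hF hC hinv

lemma Del_step (hi : i ∉ B) (hl : ∀ j ∈ B, τ j < τ i) (D : Set V) (v : V) {c : V →₀ ℝ}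
    (hc : ∀ (B B' : Finset (V × ℕ)) (y y' : V × ℕ → ℝ), (∀ i, |y i| ≤ 1) → (∀ i, |y' i| ≤ 1) →
      (cov μ B y v i.1 - cov μ B' y' v i.1) ^ 2 ≤
        c.sum fun z a => a * (mag μ B y z - mag μ B' y' z) ^ 2) {κ : ℝ}
    (hκ : ∀ y : V × ℕ → ℝ, (∀ i, |y i| ≤ 1) → |cov μ B y v i.1| ≤ κ) :
    Del μ ε τ D (insert i B) v ≤ Del μ ε τ D B v + ε ^ 2 *
      (if i.1 ∈ D then 2 * c.sum (fun z a => a * Del μ ε τ D B z) + 8 * κ ^ 2 * Del μ ε τ D B i.1
        else κ ^ 2) := by
  set B' := B.filter fun j => j.1 ∈ D with hB'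
  have hi' : i ∉ B' := fun h => hi (mem_filter.1 h).1
  have hl' : ∀ j ∈ B', τ j < τ i := fun j hj => hl j (mem_filter.1 hj).1
  have hma : Measurable fun g => M μ ε τ B' v g - M μ ε τ B v g :=
    (measurable_M τ _ v).sub (measurable_M τ _ v)
  have hinv : ∀ g u, M μ ε τ B' v (Function.update g i u) - M μ ε τ B v (Function.update g i u) =
      M μ ε τ B' v g - M μ ε τ B v g := fun g u => by
    simp only [M, pst_update hi, pst_update hi']
  have h1 : ∫ g, (M μ ε τ B' v g - M μ ε τ B v g) *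
      M μ ε τ ((insert i B).filter fun j => j.1 ∈ D) v g ∂PN V =
      ∫ g, (M μ ε τ B' v g - M μ ε τ B v g) * M μ ε τ B' v g ∂PN V := by
    rw [filter_insert]
    split_ifs
    · exact mart_M hi' hl' v hma (M_sub_abs _ _ v) hinv
    · rfl
  have h2 := mart_M (μ := μ) (ε := ε) hi hl v hma (M_sub_abs _ _ v) hinv
  have hmb : Measurable fun g => M μ ε τ ((insert i B).filter fun j => j.1 ∈ D) v g -
      M μ ε τ (insert i B) v g := (measurable_M τ _ v).sub (measurable_M τ _ v)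
  rw [Del, sq_step hma hmb (M_sub_abs _ _ v) (M_sub_abs _ _ v) (by
      simp only [mul_sub (_ - _)]
      rw [integral_sub (int_mulM hma (M_sub_abs _ _ v) _ v) (int_mulM hma (M_sub_abs _ _ v) _ v),
        integral_sub (int_mulM hma (M_sub_abs _ _ v) _ v) (int_mulM hma (M_sub_abs _ _ v) _ v),
        h1, h2])]
  refine add_le_add le_rfl ?_
  have hε : |(ε : ℝ)| ≤ 1 := by simpa using eps_mul ε (m := 1) (by simp)
  rw [filter_insert]
  split_ifs with hD
  · have i1 : ∀ z ∈ c.support, Integrable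
        (fun g => c z * (M μ ε τ B' z g - M μ ε τ B z g) ^ 2) (PN V) :=
      fun z _ => (int_dsq _ _ z).const_mul _
    have i2 := (integrable_finsetSum _ i1).const_mul 2
    have i3 := (int_dsq (μ := μ) (ε := ε) (τ := τ) B' B i.1).const_mul (8 * κ ^ 2)
    calc _ ≤ ∫ g, ε ^ 2 * (2 * ∑ z ∈ c.support, c z * (M μ ε τ B' z g - M μ ε τ B z g) ^ 2 +
          8 * κ ^ 2 * (M μ ε τ B' i.1 g - M μ ε τ B i.1 g) ^ 2) ∂PN V := by
          refine integral_mono_of_nonneg (Eventually.of_forall fun g => sq_nonneg _)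
            ((i2.add i3).const_mul _) (Eventually.of_forall fun g => ?_)
          simp only
          rw [M_insert hi hl, M_insert hi' hl']
          have a1 := hc B' B _ _ (ys_abs (μ := μ) (ε := ε) (τ := τ) (g := g) (B := B'))
            (ys_abs (μ := μ) (ε := ε) (τ := τ) (g := g) (B := B))
          have a2 := sqle (hκ _ (ys_abs (μ := μ) (ε := ε) (τ := τ) (g := g) (B := B)))
          have m1 := eps_mul ε (M_abs (μ := μ) (ε := ε) (τ := τ) (g := g) (B := B') i.1)
          have m2 := eps_mul ε (M_abs (μ := μ) (ε := ε) (τ := τ) (g := g) (B := B) i.1)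
          have a3 := sqle (gain_abs m1 (g i))
          have a4 : (gain (ε * M μ ε τ B' i.1 g) (g i) - gain (ε * M μ ε τ B i.1 g) (g i)) ^ 2 ≤
              4 * (M μ ε τ B' i.1 g - M μ ε τ B i.1 g) ^ 2 := by
            refine (sqle ((gain_lip m1 m2 (g i)).trans (c := 2 * |M μ ε τ B' i.1 g -
              M μ ε τ B i.1 g|) ?_)).trans (le_of_eq ?_)
            · rw [← mul_sub, abs_mul]
              gcongr
              exact mul_le_of_le_one_left (abs_nonneg _) hε
            · rw [mul_pow, sq_abs]; norm_num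
          change _ ≤ ∑ z ∈ c.support, c z * (M μ ε τ B' z g - M μ ε τ B z g) ^ 2 at a1
          set s := ∑ z ∈ c.support, c z * (M μ ε τ B' z g - M μ ε τ B z g) ^ 2
          set x' := cov μ B' (ys μ ε τ g B') v i.1
          set x := cov μ B (ys μ ε τ g B) v i.1
          set y' := gain (ε * M μ ε τ B' i.1 g) (g i)
          set y := gain (ε * M μ ε τ B i.1 g) (g i)
          set δ := (M μ ε τ B' i.1 g - M μ ε τ B i.1 g) ^ 2
          have b1 : ((x' - x) * y') ^ 2 ≤ s * 1 ^ 2 := by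
            rw [mul_pow]; exact mul_le_mul a1 a3 (sq_nonneg _) ((sq_nonneg _).trans a1)
          have b2 : (x * (y' - y)) ^ 2 ≤ κ ^ 2 * (4 * δ) := by
            rw [mul_pow]; exact mul_le_mul a2 a4 (sq_nonneg _) (sq_nonneg _)
          calc _ = ε ^ 2 * ((x' - x) * y' + x * (y' - y)) ^ 2 := by ring
            _ ≤ _ := by
              gcongr
              nlinarith [sq_nonneg ((x' - x) * y' - x * (y' - y))]
      _ = _ := by
          rw [integral_const_mul, integral_add i2 i3, integral_const_mul, integral_const_mul,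
            integral_finsetSum _ i1]
          simp only [integral_const_mul]
          rfl
  · calc _ ≤ ∫ _g, ε ^ 2 * κ ^ 2 ∂PN V := by
          refine integral_mono_of_nonneg (Eventually.of_forall fun g => sq_nonneg _)
            (integrable_const _) (Eventually.of_forall fun g => ?_)
          simp only
          rw [M_insert hi hl]
          have a2 := sqle (hκ _ (ys_abs (μ := μ) (ε := ε) (τ := τ) (g := g) (B := B)))
          have a3 := sqle (gain_abs (eps_mul ε (M_abs (μ := μ) (ε := ε) (τ := τ) (g := g)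
            (B := B) i.1)) (g i))
          calc _ = ε ^ 2 * (cov μ B (ys μ ε τ g B) v i.1 ^ 2 *
                gain (ε * M μ ε τ B i.1 g) (g i) ^ 2) := by ring
            _ ≤ ε ^ 2 * (κ ^ 2 * 1 ^ 2) := by gcongr
            _ = _ := by ring
      _ = _ := by simp

lemma telescope0 (hτ : Sched τ) (f : Finset (V × ℕ) → ℝ) (b : V × ℕ → Finset (V × ℕ) → ℝ)
    (h : ∀ i B, i ∉ B → (∀ j ∈ B, τ j < τ i) → f (insert i B) ≤ f B + b i B)
    (A : Finset (V × ℕ)) : f A ≤ f ∅ + ∑ i ∈ A, b i (A.filter fun j => τ j < τ i) := by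
  have h0 : ∀ j, 0 ≤ τ j := fun j => (Nat.cast_nonneg _).trans (hτ.2 j).1
  have := telescope hτ.1 f b h 0 A
  rwa [filter_false_of_mem fun j _ => (h0 j).not_gt, filter_true_of_mem fun j _ => h0 j] at this

lemma Sched.le (hτ : Sched τ) {i j : V × ℕ} (h : τ j < τ i) : j.2 ≤ i.2 := by
  have h1 : (j.2 : ℝ) < (i.2 + 1 : ℕ) := by
    push_cast; linarith [(hτ.2 i).2, (hτ.2 j).1]
  exact Nat.lt_succ_iff.1 (by exact_mod_cast h1)

variable {G : SimpleGraph V} {θ : ℝ}

theorem Del_bound (hT : G.IsTree) (hG : ∀ v, (G.neighborSet v).Finite) {d : ℕ}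
    (hd : ∀ v, (G.neighborSet v).ncard = d) (hμ : IsFreeIsing G θ μ) (h0 : 0 ≤ θ) (h1 : θ < 1)
    {l q : ℝ} (hl : 1 < l) (hq : l ^ 2 * θ ^ 2 < q) (hq' : q * (d - 1) < 1) (o : V) :
    ∃ ε : unitInterval, 0 < (ε : ℝ) ∧ ∀ τ, Sched τ → ∀ (D : Set V) (r : ℕ),
      (∀ z, G.dist o z < r → z ∈ D) → ∀ (B : Finset (V × ℕ)) (n : ℕ), (∀ j ∈ B, j.2 ≤ n) → ∀ v,
        Del μ ε τ D B v ≤ 2 ^ n * (l ^ G.dist o v / l ^ r) := by
  obtain ⟨C, hC0, hC⟩ := path_bound hT hG hμ h0 h1 hl hq o
  have hq0 : 0 ≤ q := le_trans (by positivity) hq.le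
  obtain ⟨K, hK0, hK⟩ := count_bound hT.connected hG hd hq0 hq'
  have hden : 0 < 1 + 2 * (2 * C + 8) * K := by positivity
  obtain ⟨ε, hε⟩ : ∃ ε : unitInterval, (ε : ℝ) = 1 / (1 + 2 * (2 * C + 8) * K) :=
    ⟨⟨1 / (1 + 2 * (2 * C + 8) * K), by positivity, by
      rw [div_le_one hden]; nlinarith [mul_nonneg hC0 hK0]⟩, rfl⟩
  refine ⟨ε, by rw [hε]; positivity, ?_⟩
  have hε2 : (ε : ℝ) ^ 2 * (2 * (2 * C + 8) * K) ≤ 1 := by
    have e1 : (ε : ℝ) * (1 + 2 * (2 * C + 8) * K) = 1 := by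
      rw [hε]; exact one_div_mul_cancel hden.ne'
    have e2 := ε.2.1
    have e3 := ε.2.2
    have : (ε : ℝ) * (2 * (2 * C + 8) * K) ≤ 1 := by linarith
    calc _ = ε * (ε * (2 * (2 * C + 8) * K)) := by ring
      _ ≤ 1 * 1 := by gcongr
      _ = 1 := one_mul _
  intro τ hτ D r hD B
  choose c c0 c1 c2 using fun u v => hC u _ v rfl
  have hθq : ∀ u v, (θ ^ G.dist u v) ^ 2 * l ^ G.dist o u ≤ q ^ G.dist u v * l ^ G.dist o v := by
    intro u v
    have t1 : G.dist o u ≤ G.dist u v + G.dist o v := by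
      have := hT.connected.dist_triangle (u := o) (v := v) (w := u)
      rw [SimpleGraph.dist_comm (u := v)] at this; omega
    calc _ ≤ (θ ^ G.dist u v) ^ 2 * l ^ (G.dist u v + G.dist o v) := by
          gcongr; exact hl.le
      _ = (l * θ ^ 2) ^ G.dist u v * l ^ G.dist o v := by rw [mul_pow, pow_add]; ring
      _ ≤ _ := by
          gcongr
          nlinarith [mul_nonneg (mul_nonneg (by linarith : 0 ≤ l) (by linarith : 0 ≤ l - 1))
            (sq_nonneg θ)]
  have hlr : 0 < l ^ r := by positivity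
  induction B using Finset.strongInduction with
  | H B ih =>
    intro n hn v
    have t := telescope0 hτ (fun B => Del μ ε τ D B v) _ (fun i B hi hl' => Del_step hi hl' D v
      (c2 i.1 v) (fun y hy => cov_abs hT hG hμ h0 h1 hy i.1 _ v rfl)) B
    have e0 : Del μ ε τ D ∅ v = 0 := by simp [Del]
    rw [e0, zero_add] at t
    refine t.trans ?_
    calc _ ≤ ∑ i ∈ B, ε ^ 2 * ((2 * C + 8) * (l ^ G.dist o v / l ^ r) *
            (q ^ G.dist i.1 v * 2 ^ i.2)) := by
          refine sum_le_sum fun i hi => mul_le_mul_of_nonneg_left ?_ (sq_nonneg _)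
          have hw : 0 ≤ l ^ G.dist o v / l ^ r * (q ^ G.dist i.1 v * 2 ^ i.2) := by positivity
          split_ifs with hiD
          · have IH := ih (B.filter fun j => τ j < τ i)
              (filter_ssubset.2 ⟨i, hi, lt_irrefl (τ i)⟩) i.2
              fun j hj => hτ.le (mem_filter.1 hj).2
            have s1 : (c i.1 v).sum (fun z a => a * Del μ ε τ D (B.filter fun j => τ j < τ i) z) ≤
                C * (l ^ G.dist o v / l ^ r * (q ^ G.dist i.1 v * 2 ^ i.2)) := by
              calc _ ≤ ∑ z ∈ (c i.1 v).support, 2 ^ i.2 / l ^ r * (c i.1 v z * l ^ G.dist o z) :=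
                    sum_le_sum fun z _ => (mul_le_mul_of_nonneg_left (IH z) (c0 _ _ z)).trans
                      (le_of_eq (by ring))
                _ ≤ 2 ^ i.2 / l ^ r * (C * q ^ G.dist i.1 v * l ^ G.dist o v) := by
                    rw [← mul_sum]
                    exact mul_le_mul_of_nonneg_left (c1 _ _) (by positivity)
                _ = _ := by ring
            have s2 : (θ ^ G.dist i.1 v) ^ 2 * Del μ ε τ D (B.filter fun j => τ j < τ i) i.1 ≤
                l ^ G.dist o v / l ^ r * (q ^ G.dist i.1 v * 2 ^ i.2) := by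
              calc _ ≤ (θ ^ G.dist i.1 v) ^ 2 * (2 ^ i.2 * (l ^ G.dist o i.1 / l ^ r)) := by
                    gcongr; exact IH _
                _ = 2 ^ i.2 / l ^ r * ((θ ^ G.dist i.1 v) ^ 2 * l ^ G.dist o i.1) := by ring
                _ ≤ 2 ^ i.2 / l ^ r * (q ^ G.dist i.1 v * l ^ G.dist o v) := by
                    exact mul_le_mul_of_nonneg_left (hθq _ _) (by positivity)
                _ = _ := by ring
            linarith
          · have s1 : l ^ r ≤ l ^ G.dist o i.1 :=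
              pow_le_pow_right₀ hl.le (not_lt.1 fun h => hiD (hD _ h))
            have s2 : (θ ^ G.dist i.1 v) ^ 2 ≤
                l ^ G.dist o v / l ^ r * (q ^ G.dist i.1 v * 2 ^ i.2) := by
              rw [div_mul_eq_mul_div, le_div_iff₀ hlr]
              calc _ ≤ (θ ^ G.dist i.1 v) ^ 2 * l ^ G.dist o i.1 := by gcongr
                _ ≤ q ^ G.dist i.1 v * l ^ G.dist o v := hθq _ _
                _ ≤ q ^ G.dist i.1 v * 2 ^ i.2 * l ^ G.dist o v := by
                    gcongr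
                    exact le_mul_of_one_le_right (by positivity) (one_le_pow₀ one_le_two)
                _ = _ := by ring
            nlinarith [mul_nonneg hC0 hw]
      _ ≤ ∑ i ∈ B.image Prod.fst ×ˢ range (n + 1), ε ^ 2 * ((2 * C + 8) *
            (l ^ G.dist o v / l ^ r) * (q ^ G.dist i.1 v * 2 ^ i.2)) := by
          refine sum_le_sum_of_subset_of_nonneg (fun j hj => ?_) fun _ _ _ => by positivity
          exact mem_product.2 ⟨mem_image_of_mem _ hj, mem_range.2 (Nat.lt_succ_of_le (hn j hj))⟩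
      _ = ε ^ 2 * ((2 * C + 8) * (l ^ G.dist o v / l ^ r) *
            ((∑ u ∈ B.image Prod.fst, q ^ G.dist u v) * ∑ m ∈ range (n + 1), 2 ^ m)) := by
          rw [sum_mul_sum, ← sum_product', mul_sum, mul_sum]
      _ ≤ ε ^ 2 * ((2 * C + 8) * (l ^ G.dist o v / l ^ r) * (K * (2 * 2 ^ n))) := by
          gcongr
          · exact hK _ _
          · rw [geom_sum_eq (by norm_num), pow_succ]; norm_num; linarith
      _ = ε ^ 2 * (2 * (2 * C + 8) * K) * (2 ^ n * (l ^ G.dist o v / l ^ r)) := by ring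
      _ ≤ _ := mul_le_of_le_one_left (by positivity) hε2

lemma int_Msq (B : Finset (V × ℕ)) (v : V) :
    Integrable (fun g => M μ ε τ B v g ^ 2) (PN V) :=
  ibdd ((measurable_M τ B v).pow_const 2) (C := 1 ^ 2) fun g => by
    rw [abs_of_nonneg (sq_nonneg _)]; exact sqle (M_abs v)

lemma Sq_le (B : Finset (V × ℕ)) (v : V) : Sq μ ε τ B v ≤ 1 := by
  calc _ ≤ ∫ _g, (1 : ℝ) ^ 2 ∂PN V :=
        integral_mono (int_Msq B v) (integrable_const _) fun g => sqle (M_abs v)
    _ = 1 := by simp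

lemma M_abs2 (B : Finset (V × ℕ)) (v : V) (g : V × ℕ → unitInterval) : |M μ ε τ B v g| ≤ 2 :=
  (M_abs v).trans one_le_two

lemma Sq_seg (hτ : Function.Injective τ) (A : Finset (V × ℕ)) (t : ℝ) (v : V) :
    Sq μ ε τ A v = Sq μ ε τ (A.filter fun j => τ j < t) v +
      ∫ g, (M μ ε τ A v g - M μ ε τ (A.filter fun j => τ j < t) v g) ^ 2 ∂PN V :=
  sq_step (measurable_M τ _ v) (measurable_M τ _ v) (M_abs2 _ v) (M_abs2 _ v)
    (mart_seg hτ (FDep.spin v) (fun _ => (spin_abs _).le) t (measurable_M τ _ v) (M_abs2 _ v)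
      (fun i hi g u => pst_update (fun h => (mem_filter.1 h).2.not_ge hi) _ u) A)

lemma Sq_step (hi : i ∉ B) (hl : ∀ j ∈ B, τ j < τ i) (v : V) :
    Sq μ ε τ B v + (if i.1 = v then ε ^ 2 / 100 * (1 - Sq μ ε τ B v) ^ 2 else 0) ≤
      Sq μ ε τ (insert i B) v := by
  rw [Sq.eq_1 μ ε τ (insert i B), sq_step (measurable_M τ B v) (measurable_M τ _ v) (M_abs2 _ v)
    (M_abs2 _ v) (mart_M hi hl v (measurable_M τ B v) (M_abs2 _ v)
      fun g u => pst_update hi _ u)]
  refine add_le_add le_rfl ?_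
  split_ifs with h
  swap
  · exact integral_nonneg fun _ => sq_nonneg _
  subst h
  rw [integral_update i (F := fun g => (M μ ε τ (insert i B) i.1 g - M μ ε τ B i.1 g) ^ 2)
    (((measurable_M τ _ _).sub (measurable_M τ _ _)).pow_const 2)
    (C := 2 ^ 2) fun g => by rw [abs_of_nonneg (sq_nonneg _)]; exact sqle (M_sub_abs _ _ _ g)]
  have e : ∀ g u, (M μ ε τ (insert i B) i.1 (Function.update g i u) -
      M μ ε τ B i.1 (Function.update g i u)) ^ 2 =
      ε ^ 2 * (1 - M μ ε τ B i.1 g ^ 2) ^ 2 * gain (ε * M μ ε τ B i.1 g) u ^ 2 := by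
    intro g u
    rw [M_insert hi hl, cov_self ys_abs]
    have : M μ ε τ B i.1 (Function.update g i u) = M μ ε τ B i.1 g := pst_update hi _ u
    change (_ + ε * (1 - M μ ε τ B i.1 (Function.update g i u) ^ 2) * _ - _) ^ 2 = _
    rw [this, Function.update_self]; ring
  simp only [e, integral_const_mul]
  set s := 1 - Sq μ ε τ B i.1 with hs
  have i1 : Integrable (fun g => 1 - M μ ε τ B i.1 g ^ 2) (PN V) :=
    (integrable_const _).sub (int_Msq B i.1)
  have e2 : ∫ g, ε ^ 2 / 100 * (2 * s * (1 - M μ ε τ B i.1 g ^ 2) - s ^ 2) ∂PN V =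
      ε ^ 2 / 100 * s ^ 2 := by
    rw [integral_const_mul, integral_sub (i1.const_mul _) (integrable_const _), integral_const_mul,
      integral_sub (integrable_const _) (int_Msq B i.1)]
    simp only [integral_const, probReal_univ, one_smul]
    change _ * (2 * s * s - _) = _
    ring
  rw [← e2]
  refine integral_mono (((i1.const_mul _).sub (integrable_const _)).const_mul _) ?_ fun g => ?_
  · have hm := measurable_M (μ := μ) (ε := ε) τ B i.1
    have ho : Measurable fun p : (V × ℕ → unitInterval) × unitInterval =>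
        obs (ε * M μ ε τ B i.1 p.1) p.2 :=
      measurable_obs.comp (((hm.comp measurable_fst).const_mul _).prodMk measurable_snd)
    have hg : Measurable fun p : (V × ℕ → unitInterval) × unitInterval =>
        gain (ε * M μ ε τ B i.1 p.1) p.2 ^ 2 :=
      ((ho.div_const 2).div (((((hm.comp measurable_fst).const_mul _).div_const 2).mul
        ho).const_add 1)).pow_const 2
    refine ibdd (((((hm.pow_const 2).const_sub 1).pow_const 2).const_mul _).mul
      (hg.stronglyMeasurable.integral_prod_right' (ν := volume)).measurable) (C := 1) fun g => ?_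
    have a1 := sqle (M_abs (μ := μ) (ε := ε) (τ := τ) (g := g) (B := B) i.1)
    have a2 : |∫ u, gain (ε * M μ ε τ B i.1 g) u ^ 2| ≤ 1 := by
      have := norm_integral_le_of_norm_le_const (μ := (volume : Measure unitInterval))
        (f := fun u => gain (ε * M μ ε τ B i.1 g) u ^ 2) (C := 1 ^ 2)
        (Eventually.of_forall fun u => by
          rw [Real.norm_eq_abs, abs_of_nonneg (sq_nonneg _)]
          exact sqle (gain_abs (eps_mul ε (M_abs _)) u))
      simpa using this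
    rw [abs_mul]
    refine mul_le_one₀ ?_ (abs_nonneg _) a2
    rw [abs_of_nonneg (by positivity)]
    refine mul_le_one₀ (pow_le_one₀ ε.2.1 ε.2.2) (sq_nonneg _) (pow_le_one₀ (by linarith) ?_)
    nlinarith [sq_nonneg (M μ ε τ B i.1 g)]
  · have a1 := gain_lower (eps_mul ε (M_abs (μ := μ) (ε := ε) (τ := τ) (g := g) (B := B) i.1))
    calc ε ^ 2 / 100 * (2 * s * (1 - M μ ε τ B i.1 g ^ 2) - s ^ 2)
        ≤ ε ^ 2 / 100 * (1 - M μ ε τ B i.1 g ^ 2) ^ 2 := by
          gcongr; nlinarith [sq_nonneg (1 - M μ ε τ B i.1 g ^ 2 - s)]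
      _ = ε ^ 2 * (1 - M μ ε τ B i.1 g ^ 2) ^ 2 * (1 / 100) := by ring
      _ ≤ _ := by gcongr

theorem Sq_info (hτ : Sched τ) {D : Finset V} {v : V} (hv : v ∈ D) (R : ℕ) :
    (R : ℝ) * ((ε : ℝ) ^ 2 / 100 * (1 - Sq μ ε τ (D ×ˢ range R) v) ^ 2) ≤ 1 := by
  have t := telescope0 hτ (fun B => -Sq μ ε τ B v)
    (fun i B => -(if i.1 = v then ε ^ 2 / 100 * (1 - Sq μ ε τ B v) ^ 2 else 0))
    (fun i B hi hl => by linarith [Sq_step (μ := μ) (ε := ε) hi hl v]) (D ×ˢ range R)
  set A := D ×ˢ range R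
  have h1 := Sq_le (μ := μ) (ε := ε) (τ := τ) A v
  have h2 : 0 ≤ Sq μ ε τ ∅ v := integral_nonneg fun _ => sq_nonneg _
  have h3 : (R : ℝ) * ((ε : ℝ) ^ 2 / 100 * (1 - Sq μ ε τ A v) ^ 2) =
      ∑ i ∈ A, if i.1 = v then (ε : ℝ) ^ 2 / 100 * (1 - Sq μ ε τ A v) ^ 2 else 0 := by
    rw [sum_product_right]
    simp [hv]
  rw [sum_neg_distrib] at t
  rw [h3]
  refine le_trans (sum_le_sum fun i _ => ?_) (show ∑ i ∈ A, (if i.1 = v then (ε : ℝ) ^ 2 / 100 *
    (1 - Sq μ ε τ (A.filter fun j => τ j < τ i) v) ^ 2 else 0) ≤ 1 by linarith)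
  split_ifs
  · have := Sq_seg (μ := μ) (ε := ε) hτ.1 A (τ i) v
    have h4 : 0 ≤ ∫ g, (M μ ε τ A v g - M μ ε τ (A.filter fun j => τ j < τ i) v g) ^ 2 ∂PN V :=
      integral_nonneg fun _ => sq_nonneg _
    gcongr
    linarith
  · exact le_rfl

theorem Sq_time (hτ : Sched τ) (D : Finset V) (v : V) {R R' : ℕ} (h : R ≤ R') :
    ∫ g, (M μ ε τ (D ×ˢ range R') v g - M μ ε τ (D ×ˢ range R) v g) ^ 2 ∂PN V ≤
      1 - Sq μ ε τ (D ×ˢ range R) v := by
  have e : (D ×ˢ range R').filter (fun j => τ j < R) = D ×ˢ range R := by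
    ext j
    simp only [mem_filter, mem_product, mem_range]
    constructor
    · rintro ⟨⟨h1, _⟩, h2⟩
      exact ⟨h1, by exact_mod_cast (hτ.2 j).1.trans_lt h2⟩
    · rintro ⟨h1, h2⟩
      exact ⟨⟨h1, h2.trans_le h⟩, (hτ.2 j).2.trans_le (by exact_mod_cast h2)⟩
  have := Sq_seg (μ := μ) (ε := ε) hτ.1 (D ×ˢ range R') R v
  rw [e] at this
  linarith [Sq_le (μ := μ) (ε := ε) (τ := τ) (D ×ˢ range R') v]

end Vale.Agent.P161
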