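import Vale.Agent.P161.Ising

namespace Vale.Agent.P161

open MeasureTheory Filter Topology Finset
open scoped Classical

variable {V : Type*} {G : SimpleGraph V} {θ : ℝ}

noncomputable def coin (θ : ℝ) : Measure Bool :=
  ENNReal.ofReal ((1 + θ) / 2) • Measure.dirac true +
    ENNReal.ofReal ((1 - θ) / 2) • Measure.dirac false

lemma coin_apply (θ : ℝ) (b : Bool) : coin θ {b} = ENNReal.ofReal ((1 + θ * spin b) / 2) := by
  cases b <;> simp [coin, spin, sub_eq_add_neg]

lemma coin_prob (h0 : 0 ≤ θ) (h1 : θ < 1) : IsProbabilityMeasure (coin θ) := by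
  constructor
  simp only [coin, Measure.add_apply, Measure.smul_apply, measure_univ, smul_eq_mul, mul_one]
  rw [← ENNReal.ofReal_add (by linarith) (by linarith), ← ENNReal.ofReal_one]
  congr 1; ring

def sep (G : SimpleGraph V) (o v : V) : Set (Sym2 V) :=
  {e | ¬ (G.deleteEdges {e}).Reachable o v}

lemma sep_finite (hc : G.Connected) (o v : V) : (sep G o v).Finite := by
  obtain ⟨p⟩ := hc.preconnected o v
  refine p.edges.finite_toSet.subset fun e he => by_contra fun h => he ?_
  induction e using Sym2.ind with
  | _ a b => exact SimpleGraph.reachable_deleteEdges_iff_exists_walk.2 ⟨p, h⟩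

lemma sep_adj (hT : G.IsTree) (o : V) {u v : V} (h : G.Adj u v) (e : Sym2 V) :
    (e ∈ sep G o u ↔ e ∈ sep G o v) ↔ e ≠ s(u, v) := by
  constructor
  · rintro h1 rfl
    have h2 : ∀ {a b : V} (_ : G.Walk a b), (b = u ∨ b = v) →
        (G.deleteEdges {s(u, v)}).Reachable a u ∨ (G.deleteEdges {s(u, v)}).Reachable a v := by
      intro a b p hb
      induction p with
      | nil => rcases hb with rfl | rfl <;> simp
      | @cons x y z hxy _ ih =>
        by_cases c : s(x, y) = s(u, v)
        · rcases Sym2.eq_iff.1 c with ⟨rfl, _⟩ | ⟨rfl, _⟩ <;> simp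
        · have : (G.deleteEdges {s(u, v)}).Reachable x y :=
            SimpleGraph.Adj.reachable (by simp [hxy, c])
          exact (ih hb).imp this.trans this.trans
    obtain ⟨p⟩ := hT.connected.preconnected o u
    have h3 := h2 p (Or.inl rfl)
    simp only [sep, Set.mem_ofPred_eq, not_iff_not] at h1
    have h4 : (G.deleteEdges {s(u, v)}).Reachable o u := by tauto
    exact notMem_side hT.isAcyclic h (h4.symm.trans (h1.1 h4))
  · intro hne
    have : (G.deleteEdges {e}).Reachable u v :=
      SimpleGraph.Adj.reachable (by simp [h, hne.symm])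
    exact not_iff_not.2 ⟨fun h1 => h1.trans this, fun h1 => h1.trans this.symm⟩

lemma spin_decide {x : ℝ} (h : x * x = 1) : spin (decide (x = 1)) = x := by
  rcases mul_self_eq_one_iff.1 h with rfl | rfl <;> norm_num [spin]

lemma spin_inj {a b : Bool} (h : spin a = spin b) : a = b := by
  revert h; cases a <;> cases b <;> norm_num [spin]

theorem exists_ising (hT : G.IsTree) (h0 : 0 ≤ θ) (h1 : θ < 1) : ∃ μ, IsFreeIsing G θ μ := by
  have := coin_prob h0 h1
  have := coin_prob le_rfl one_pos
  obtain ⟨o⟩ := hT.connected.nonempty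
  set S : V → Finset (Sym2 V) := fun v => (sep_finite hT.connected o v).toFinset with hS
  set sg : (Sym2 V → Bool) → V → ℝ := fun ω v => ∏ e ∈ S v, spin (ω e) with hsg
  have sq1 : ∀ ω v, sg ω v * sg ω v = 1 := fun ω v => by simp [hsg, ← prod_mul_distrib]
  have hadj : ∀ ω u v, G.Adj u v → sg ω u * sg ω v = spin (ω s(u, v)) := by
    intro ω u v h
    have e : ∀ w, S w ⊆ S u ∪ S v → sg ω w =
        ∏ e ∈ insert s(u, v) (S u ∪ S v), if e ∈ S w then spin (ω e) else 1 := by
      intro w hw
      rw [← prod_filter, filter_mem_eq_inter, inter_eq_right.2 (hw.trans (subset_insert _ _))]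
    rw [e u subset_union_left, e v subset_union_right, ← prod_mul_distrib,
      prod_eq_single_of_mem _ (mem_insert_self _ _)]
    · have := (sep_adj hT o h s(u, v)).not.2 (by simp)
      simp only [hS, Set.Finite.mem_toFinset]
      by_cases c : s(u, v) ∈ sep G o u
      · rw [if_pos c, if_neg (by tauto), mul_one]
      · rw [if_neg c, if_pos (by tauto), one_mul]
    · intro e _ hne
      have := (sep_adj hT o h e).2 hne
      simp only [hS, Set.Finite.mem_toFinset, ← this]
      split_ifs <;> simp
  set Ψ : (Sym2 V → Bool) × Bool → V → Bool := fun p v => decide (spin p.2 * sg p.1 v = 1) with hΨ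
  have hsp : ∀ p v, spin (Ψ p v) = spin p.2 * sg p.1 v := fun p v => spin_decide (by
    linear_combination (sg p.1 v * sg p.1 v) * spin_sq p.2 + sq1 p.1 v)
  have hm : Measurable Ψ := by
    refine measurable_pi_iff.2 fun v => measurable_to_bool ?_
    have : (fun p => Ψ p v) ⁻¹' {true} = {p | spin p.2 * sg p.1 v = 1} := by ext; simp [hΨ]
    rw [this]
    have hs : Measurable spin := Measurable.of_discrete
    exact measurableSet_eq_fun ((hs.comp measurable_snd).mul (Finset.measurable_prod _ fun e _ =>
      hs.comp ((measurable_pi_apply e).comp measurable_fst))) measurable_const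
  refine ⟨((Measure.infinitePi fun _ => coin θ).prod (coin 0)).map Ψ,
    Measure.isProbabilityMeasure_map hm.aemeasurable, fun D hD η => ?_⟩
  obtain ⟨x, hx⟩ := hD.nonempty
  set ED := D.sym2.filter (fun e => e ∈ G.edgeSet) with hED
  set val : Sym2 V → ℝ := fun e => (e.map fun v => spin (η v)).mul with hval
  have hv1 : ∀ e, val e * val e = 1 := fun e => by
    induction e using Sym2.ind with
    | _ a b =>
      change spin (η a) * spin (η b) * (spin (η a) * spin (η b)) = 1
      linear_combination (spin (η b) * spin (η b)) * spin_sq (η a) + spin_sq (η b)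
  set E := Set.pi (ED : Set (Sym2 V)) fun e => {decide (val e = 1)} with hE
  have hEm : MeasurableSet E := MeasurableSet.pi ED.countable_toSet fun _ _ =>
    measurableSet_singleton _
  have key : ∀ ω, Prod.mk ω ⁻¹' (Ψ ⁻¹' {σ | ∀ v ∈ D, σ v = η v}) =
      if ω ∈ E then {decide (spin (η x) * sg ω x = 1)} else ∅ := by
    intro ω
    have b1 : ∀ s, Ψ (ω, s) x = η x ↔ s = decide (spin (η x) * sg ω x = 1) := by
      intro s
      have a0 : spin (decide (spin (η x) * sg ω x = 1)) = spin (η x) * sg ω x := hsp (ω, η x) x
      constructor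
      · intro h
        refine spin_inj ?_
        rw [a0, ← h, hsp, mul_assoc, sq1, mul_one]
      · intro h
        refine spin_inj ?_
        rw [hsp, h, a0, mul_assoc, sq1, mul_one]
    have b2 : ∀ s u v, G.Adj u v → spin (Ψ (ω, s) u) * spin (Ψ (ω, s) v) = spin (ω s(u, v)) := by
      intro s u v h
      rw [hsp, hsp, ← hadj ω u v h]
      linear_combination (sg ω u * sg ω v) * spin_sq s
    ext s
    simp only [Set.mem_preimage, Set.mem_ofPred_eq]
    constructor
    · intro h
      rw [if_pos]
      · exact (b1 s).1 (h x hx)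
      · intro e he
        induction e using Sym2.ind with
        | _ a b =>
          obtain ⟨g1, g2⟩ := mem_filter.1 (mem_coe.1 he)
          rw [mk_mem_sym2_iff] at g1
          refine spin_inj ?_
          rw [spin_decide (hv1 _), ← b2 s a b g2, h a g1.1, h b g1.2]
          rfl
    · intro h v hv
      split_ifs at h with c
      swap
      · exact h.elim
      have b3 : ∀ {a b : (D : Set V)} (_ : (G.induce (D : Set V)).Walk a b),
          Ψ (ω, s) a = η a → Ψ (ω, s) b = η b := by
        intro a b p
        induction p with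
        | nil => exact id
        | @cons a b _ hab _ ih =>
          refine fun h => ih (spin_inj ?_)
          have g1 := b2 s a b hab
          have g2 : ω s(a, b) = _ := c s(a, b) (mem_coe.2 (mem_filter.2
            ⟨mk_mem_sym2_iff.2 ⟨a.2, b.2⟩, hab⟩))
          rw [g2, spin_decide (hv1 _), h] at g1
          exact mul_left_cancel₀ (by rcases spin_cases (η a) with h | h <;> norm_num [h]) g1
      obtain ⟨p⟩ := hD.preconnected ⟨x, hx⟩ ⟨v, hv⟩
      exact b3 p ((b1 s).2 h)
  rw [measureReal_def, Measure.map_apply hm (measurableSet_cyl D η),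
    Measure.prod_apply (hm (measurableSet_cyl D η))]
  have e2 : ∀ ω, coin 0 (Prod.mk ω ⁻¹' (Ψ ⁻¹' {σ | ∀ v ∈ D, σ v = η v})) =
      E.indicator (fun _ => ENNReal.ofReal (1 / 2)) ω := by
    intro ω
    rw [key, Set.indicator_apply]
    split_ifs
    · rw [coin_apply]; simp
    · simp
  simp only [e2]
  rw [lintegral_indicator_const hEm, hE, Measure.infinitePi_pi _ fun _ _ =>
    measurableSet_singleton _, ENNReal.toReal_mul, ENNReal.toReal_ofReal (by norm_num),
    ENNReal.toReal_prod]
  congr 1
  refine prod_congr rfl fun e _ => ?_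
  rw [coin_apply, spin_decide (hv1 e)]
  exact ENNReal.toReal_ofReal (ew_pos h0 h1 η e).le

end Vale.Agent.P161
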