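import Vale.Agent.P161.Defs
import Vale.Agent.P143.Bridge

namespace Vale.Agent.P161

open MeasureTheory Filter Topology Finset
open scoped Classical

variable {V : Type*}

@[simp] lemma spin_sq (b : Bool) : spin b * spin b = 1 := by cases b <;> simp [spin]

lemma spin_abs (b : Bool) : |spin b| = 1 := by cases b <;> simp [spin]

lemma spin_cases (b : Bool) : spin b = 1 ∨ spin b = -1 := by cases b <;> simp [spin]

noncomputable def cfg (T : Finset V) : V → Bool := fun z => decide (z ∈ T)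

def Dep (D : Set V) (k : (V → Bool) → ℝ) : Prop :=
  ∀ σ σ', (∀ z ∈ D, σ z = σ' z) → k σ = k σ'

lemma Dep.mono {D D' : Set V} {k : (V → Bool) → ℝ} (h : Dep D k) (hD : D ⊆ D') : Dep D' k :=
  fun σ σ' hs => h σ σ' fun z hz => hs z (hD hz)

lemma Dep.mul {D : Set V} {k k' : (V → Bool) → ℝ} (h : Dep D k) (h' : Dep D k') :
    Dep D fun σ => k σ * k' σ := fun σ σ' hs => by simp only [h σ σ' hs, h' σ σ' hs]

lemma Dep.const (D : Set V) (c : ℝ) : Dep D fun _ => c := fun _ _ _ => rfl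

lemma Dep.spin {D : Set V} {v : V} (hv : v ∈ D) : Dep D fun σ => spin (σ v) :=
  fun σ σ' hs => by simp only [hs v hv]

lemma measurableSet_cyl (D : Finset V) (η : V → Bool) :
    MeasurableSet {σ : V → Bool | ∀ v ∈ D, σ v = η v} := by
  have : {σ : V → Bool | ∀ v ∈ D, σ v = η v} = Set.pi (D : Set V) fun v => {η v} := by
    ext σ; simp
  rw [this]
  exact MeasurableSet.pi D.countable_toSet fun _ _ => measurableSet_singleton _

lemma Dep.eq_sum {D : Finset V} {k : (V → Bool) → ℝ} (hk : Dep D k) :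
    k = fun σ => ∑ T ∈ D.powerset,
      {σ : V → Bool | ∀ v ∈ D, σ v = cfg T v}.indicator (fun _ => k (cfg T)) σ := by
  funext σ
  have h1 : ∀ v ∈ D, σ v = cfg (D.filter fun z => σ z = true) v := by
    intro v hv; simp [cfg, hv]
  rw [sum_eq_single_of_mem (D.filter fun z => σ z = true) (mem_powerset.2 (filter_subset _ _))]
  · rw [Set.indicator_of_mem (by exact h1)]
    exact hk _ _ h1
  · intro T hT hne
    refine Set.indicator_of_notMem (fun h => hne ?_) _
    ext z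
    simp only [mem_filter]
    constructor
    · intro hz
      have hzD := mem_powerset.1 hT hz
      exact ⟨hzD, by rw [h z hzD]; simp [cfg, hz]⟩
    · rintro ⟨h2, h3⟩
      have := h z h2
      simpa [cfg, h3] using this

lemma Dep.measurable {D : Finset V} {k : (V → Bool) → ℝ} (hk : Dep D k) : Measurable k := by
  rw [hk.eq_sum]
  exact Finset.measurable_sum _ fun T _ => measurable_const.indicator (measurableSet_cyl D _)

lemma Dep.integrable {D : Finset V} {k : (V → Bool) → ℝ} (hk : Dep D k) (μ : Measure (V → Bool))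
    [IsFiniteMeasure μ] : Integrable k μ := by
  rw [hk.eq_sum]
  exact integrable_finsetSum _ fun T _ => (integrable_const _).indicator (measurableSet_cyl D _)

noncomputable def ew (θ : ℝ) (η : V → Bool) (e : Sym2 V) : ℝ :=
  (1 + θ * (e.map fun v => spin (η v)).mul) / 2

lemma ew_mk (θ : ℝ) (η : V → Bool) (x y : V) :
    ew θ η s(x, y) = (1 + θ * (spin (η x) * spin (η y))) / 2 := rfl

lemma ew_pos {θ : ℝ} (h0 : 0 ≤ θ) (h1 : θ < 1) (η : V → Bool) (e : Sym2 V) : 0 < ew θ η e := by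
  induction e using Sym2.ind with
  | _ x y =>
    rw [ew_mk]
    rcases spin_cases (η x) with h | h <;> rcases spin_cases (η y) with h' | h' <;>
      rw [h, h'] <;> linarith

variable {G : SimpleGraph V} {θ : ℝ} {μ : Measure (V → Bool)}

lemma int_eq_sum (hμ : IsFreeIsing G θ μ) {D : Finset V} (hD : (G.induce (D : Set V)).Connected)
    {k : (V → Bool) → ℝ} (hk : Dep D k) :
    ∫ σ, k σ ∂μ = ∑ T ∈ D.powerset, k (cfg T) *
      (1 / 2 * ∏ e ∈ D.sym2.filter (fun e => e ∈ G.edgeSet), ew θ (cfg T) e) := by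
  have := hμ.1
  conv_lhs => rw [hk.eq_sum]
  rw [integral_finsetSum _ fun T _ => (integrable_const _).indicator (measurableSet_cyl D _)]
  refine sum_congr rfl fun T _ => ?_
  rw [integral_indicator_const _ (measurableSet_cyl D _), hμ.2 D hD, smul_eq_mul, mul_comm]
  rfl

lemma ext_cyl {μ ν : Measure (V → Bool)} [IsProbabilityMeasure μ] [IsProbabilityMeasure ν]
    (h : ∀ (F : Finset V) (η : V → Bool),
      μ.real {σ | ∀ v ∈ F, σ v = η v} = ν.real {σ | ∀ v ∈ F, σ v = η v}) : μ = ν := by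
  have h1 : IsProjectiveLimit μ (fun F : Finset V => μ.map F.restrict) := fun _ => rfl
  refine h1.unique fun F => Measure.ext_of_singleton fun a => ?_
  rw [Measure.map_apply (measurable_restrict F) (measurableSet_singleton _),
    Measure.map_apply (measurable_restrict F) (measurableSet_singleton _)]
  have e : (F.restrict (π := fun _ => Bool)) ⁻¹' ({a} : Set (F → Bool)) =
      {σ : V → Bool | ∀ v ∈ F, σ v = (fun v => if h : v ∈ F then a ⟨v, h⟩ else true) v} := by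
    ext σ
    simp only [Set.mem_preimage, Set.mem_singleton_iff, Set.mem_ofPred_eq, funext_iff,
      Finset.restrict]
    exact ⟨fun h v hv => by rw [dif_pos hv, ← h], fun h v => by rw [h v.1 v.2, dif_pos v.2]⟩
  rw [e]
  exact ((measureReal_eq_measureReal_iff (measure_ne_top _ _) (measure_ne_top _ _)).1
    (h F _)).symm

lemma exists_conn (hc : G.Connected) (hG : ∀ v, (G.neighborSet v).Finite) (F : Finset V) :
    ∃ D : Finset V, F ⊆ D ∧ (G.induce (D : Set V)).Connected := by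
  obtain ⟨r⟩ := hc.nonempty
  choose n hn using P143.mem_ball hc r
  refine ⟨(P143.ball_finite hG r (F.sup n)).toFinset, fun v hv => ?_, ?_⟩
  · rw [Set.Finite.mem_toFinset]
    exact P143.ball_mono r (le_sup hv) (hn v)
  · rw [Set.Finite.coe_toFinset]; exact P143.ball_conn r _

lemma ising_unique (hc : G.Connected) (hG : ∀ v, (G.neighborSet v).Finite)
    {ν : Measure (V → Bool)} (hμ : IsFreeIsing G θ μ) (hν : IsFreeIsing G θ ν) : μ = ν := by
  have := hμ.1
  have := hν.1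
  refine ext_cyl fun F η => ?_
  obtain ⟨D, h1, h2⟩ := exists_conn hc hG F
  have hd : Dep D ({σ : V → Bool | ∀ v ∈ F, σ v = η v}.indicator (1 : (V → Bool) → ℝ)) := by
    intro σ σ' hs
    have : (∀ v ∈ F, σ v = η v) ↔ ∀ v ∈ F, σ' v = η v :=
      forall₂_congr fun v hv => by rw [hs v (h1 hv)]
    simp only [Set.indicator_apply, Set.mem_ofPred_eq, this, Pi.one_apply]
  rw [← integral_indicator_one (measurableSet_cyl F η),
    ← integral_indicator_one (measurableSet_cyl F η), int_eq_sum hμ h2 hd, int_eq_sum hν h2 hd]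

lemma ising_inv (hc : G.Connected) (hG : ∀ v, (G.neighborSet v).Finite)
    (hμ : IsFreeIsing G θ μ) (g : G ≃g G) : μ.map (fun σ v => σ (g v)) = μ := by
  have := hμ.1
  have hm : Measurable fun (σ : V → Bool) v => σ (g v) := by fun_prop
  refine ising_unique hc hG ⟨Measure.isProbabilityMeasure_map hm.aemeasurable, fun D hD η => ?_⟩ hμ
  rw [map_measureReal_apply hm (measurableSet_cyl D η)]
  have e : (fun (σ : V → Bool) v => σ (g v)) ⁻¹' {σ | ∀ v ∈ D, σ v = η v} =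
      {σ | ∀ v ∈ D.map g.toEquiv.toEmbedding, σ v = η (g.symm v)} := by
    ext σ
    simp only [Set.mem_preimage, Set.mem_ofPred_eq, Finset.mem_map]
    constructor
    · rintro h _ ⟨w, hw, rfl⟩
      exact (h w hw).trans (congrArg η (g.symm_apply_apply w).symm)
    · intro h w hw
      exact (h _ ⟨w, hw, rfl⟩).trans (congrArg η (g.symm_apply_apply w))
  have hD' : (G.induce ((D.map g.toEquiv.toEmbedding : Finset V) : Set V)).Connected := by
    refine SimpleGraph.Connected.map (G := G.induce (D : Set V))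
      ⟨fun z => ⟨g z, mem_coe.2 (mem_map.2 ⟨z, z.2, rfl⟩)⟩, fun h => g.map_adj_iff.2 h⟩ ?_ hD
    rintro ⟨z, hz⟩
    obtain ⟨w, hw, rfl⟩ := mem_map.1 (mem_coe.1 hz)
    exact ⟨⟨w, hw⟩, rfl⟩
  rw [e, hμ.2 _ hD']
  congr 1
  symm
  refine prod_equiv (P143.s2 g.toEquiv) (fun e => ?_) fun e _ => ?_
  · simp only [mem_filter, P143.s2_edge]
    refine and_congr_left fun _ => ?_
    induction e using Sym2.ind with
    | _ x y => simp only [P143.s2_mk, mk_mem_sym2_iff, mem_map_equiv, Equiv.symm_apply_apply]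
  · induction e using Sym2.ind with
    | _ x y => simp

def side (G : SimpleGraph V) (x v : V) : Set V := {z | (G.deleteEdges {s(x, v)}).Reachable x z}

lemma mem_side_self (x v : V) : x ∈ side G x v := SimpleGraph.Reachable.refl _

lemma notMem_side (hT : G.IsAcyclic) {x v : V} (h : G.Adj x v) : v ∉ side G x v :=
  SimpleGraph.isBridge_iff.1 (SimpleGraph.isAcyclic_iff_forall_adj_isBridge.1 hT h)

lemma side_adj {x v a b : V} (h : G.Adj a b) (hne : s(a, b) ≠ s(x, v)) (ha : a ∈ side G x v) :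
    b ∈ side G x v :=
  SimpleGraph.Reachable.trans ha (SimpleGraph.Adj.reachable (by simp [h, hne]))

lemma exists_toward (hc : G.Connected) {u v : V} (huv : u ≠ v) :
    ∃ x, G.Adj x v ∧ G.dist u x + 1 = G.dist u v ∧ u ∈ side G x v := by
  obtain ⟨p, hp⟩ := hc.exists_walk_length_eq_dist v u
  cases p with
  | nil => exact absurd rfl huv
  | cons hadj q =>
    rename_i x
    have hp' : q.length + 1 = G.dist v u := hp
    have h1 : G.dist x u ≤ q.length := SimpleGraph.dist_le q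
    have h2 : G.dist v u ≤ G.dist v x + G.dist x u := hc.dist_triangle
    rw [SimpleGraph.dist_eq_one_iff_adj.2 hadj] at h2
    refine ⟨x, hadj.symm, by rw [SimpleGraph.dist_comm, SimpleGraph.dist_comm (u := u)]; omega, ?_⟩
    refine SimpleGraph.reachable_deleteEdges_iff_exists_walk.2 ⟨q, fun he => ?_⟩
    have hv := q.snd_mem_support_of_mem_edges he
    have h3 := SimpleGraph.dist_le (q.dropUntil v hv)
    have h4 := q.length_dropUntil_le hv
    omega

noncomputable def mob (θ n : ℝ) : ℝ := (n + θ) / (1 + θ * n)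

noncomputable def rA (θ n : ℝ) : ℝ := (mob θ n + mob (-θ) n) / 2

noncomputable def rK (θ n : ℝ) : ℝ := (mob θ n - mob (-θ) n) / 2

lemma mob_den {θ n : ℝ} (h0 : 0 ≤ θ) (hn : |n| ≤ 1) :
    (1 - θ ≤ 1 + θ * n ∧ 1 + θ * n ≤ 1 + θ) ∧ (1 - θ ≤ 1 + -θ * n ∧ 1 + -θ * n ≤ 1 + θ) := by
  rw [abs_le] at hn
  refine ⟨⟨?_, ?_⟩, ?_, ?_⟩ <;> nlinarith [hn.1, hn.2]

lemma rK_bound {θ n : ℝ} (h0 : 0 ≤ θ) (h1 : θ < 1) (hn : |n| ≤ 1) : |rK θ n| ≤ θ := by
  obtain ⟨⟨a1, _⟩, a2, _⟩ := mob_den h0 hn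
  have hn2 : n ^ 2 ≤ 1 := by rw [← sq_abs]; exact pow_le_one₀ (abs_nonneg _) hn
  have e : rK θ n = θ * (1 - n ^ 2) / ((1 + θ * n) * (1 + -θ * n)) := by
    unfold rK mob
    rw [div_sub_div _ _ (by linarith) (by linarith), div_div, div_eq_div_iff
      (mul_pos (mul_pos (by linarith) (by linarith)) two_pos).ne'
      (mul_pos (by linarith) (by linarith)).ne']
    ring
  have hp : 0 < (1 + θ * n) * (1 + -θ * n) := mul_pos (by linarith) (by linarith)
  rw [e, abs_of_nonneg (div_nonneg (mul_nonneg h0 (by linarith)) hp.le), div_le_iff₀ hp]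
  have : θ ^ 2 ≤ 1 := pow_le_one₀ h0 h1.le
  have : θ ^ 2 * n ^ 2 ≤ 1 * n ^ 2 := by gcongr
  nlinarith

lemma rK_lip {θ n n' t t' : ℝ} (h0 : 0 ≤ θ) (h1 : θ < 1) (hn : |n| ≤ 1) (hn' : |n'| ≤ 1)
    (ht : |t| ≤ 1) :
    |rK θ n - rK θ n'| ≤ 4 / (1 - θ) ^ 2 *
      (|(rA θ n + rK θ n * t) - (rA θ n' + rK θ n' * t')| + |t - t'|) := by
  obtain ⟨⟨a1, a1'⟩, a2, a2'⟩ := mob_den h0 hn
  obtain ⟨⟨b1, b1'⟩, b2, b2'⟩ := mob_den h0 hn'
  have hθ : 0 < 1 - θ := by linarith
  have hθ2 : 0 < 1 - θ ^ 2 := by nlinarith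
  have key : ∀ s : ℝ, s ^ 2 = θ ^ 2 → 1 - θ ≤ 1 + s * n → 1 + s * n ≤ 1 + θ → 1 - θ ≤ 1 + s * n' →
      1 + s * n' ≤ 1 + θ → ∃ c, 1 / 4 ≤ c ∧ c ≤ 1 / (1 - θ) ^ 2 ∧
        mob s n - mob s n' = (n - n') * (1 - θ ^ 2) * c := by
    intro s hs c1 c2 c3 c4
    have hp : 0 < (1 + s * n) * (1 + s * n') := mul_pos (by linarith) (by linarith)
    refine ⟨1 / ((1 + s * n) * (1 + s * n')), ?_, ?_, ?_⟩
    · refine one_div_le_one_div_of_le hp ?_
      nlinarith
    · refine one_div_le_one_div_of_le (by positivity) ?_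
      rw [sq]; exact mul_le_mul c1 c3 hθ.le (by linarith)
    · unfold mob
      rw [div_sub_div _ _ (by linarith) (by linarith), ← hs, mul_one_div]
      congr 1; ring
  obtain ⟨c, c1, c2, c3⟩ := key θ rfl a1 a1' b1 b1'
  obtain ⟨c', c1', c2', c3'⟩ := key (-θ) (by ring) a2 a2' b2 b2'
  set w := (n - n') * (1 - θ ^ 2)
  have e1 : rK θ n - rK θ n' = w * ((c - c') / 2) := by
    unfold rK; linear_combination (c3 - c3') / 2
  have e2 : (rA θ n + rK θ n * t) - (rA θ n' + rK θ n' * t') =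
      w * ((1 + t) / 2 * c + (1 - t) / 2 * c') + rK θ n' * (t - t') := by
    unfold rA rK; linear_combination (1 + t) / 2 * c3 + (1 - t) / 2 * c3'
  have hk := rK_bound h0 h1 hn'
  rw [abs_le] at ht
  have g1 : 1 / 4 ≤ (1 + t) / 2 * c + (1 - t) / 2 * c' := by nlinarith [ht.1, ht.2]
  have g2 : |w| * (1 / 4) ≤ |(rA θ n + rK θ n * t) - (rA θ n' + rK θ n' * t')| + |t - t'| := by
    calc |w| * (1 / 4) ≤ |w * ((1 + t) / 2 * c + (1 - t) / 2 * c')| := by
          rw [abs_mul w, abs_of_pos (by linarith : 0 < (1 + t) / 2 * c + (1 - t) / 2 * c')]; gcongr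
      _ = |((rA θ n + rK θ n * t) - (rA θ n' + rK θ n' * t')) - rK θ n' * (t - t')| := by
          rw [e2]; congr 1; ring
      _ ≤ _ := by
          refine (abs_sub _ _).trans ?_
          rw [abs_mul]
          gcongr
          exact mul_le_of_le_one_left (abs_nonneg _) (by linarith)
  have g3 : |(c - c') / 2| ≤ 1 / (1 - θ) ^ 2 := by
    rw [abs_le]; constructor <;> linarith
  rw [e1, abs_mul w]
  calc |w| * |(c - c') / 2| ≤ |w| * (1 / (1 - θ) ^ 2) := by gcongr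
    _ = 4 / (1 - θ) ^ 2 * (|w| * (1 / 4)) := by ring
    _ ≤ _ := by gcongr

lemma sum_powerset_split (D : Finset V) (S : Set V) (k : Finset V → ℝ) :
    ∑ T ∈ D.powerset, k T = ∑ T₁ ∈ (D.filter (· ∈ S)).powerset,
      ∑ T₂ ∈ (D.filter (· ∉ S)).powerset, k (T₁ ∪ T₂) := by
  rw [← sum_product']
  refine sum_nbij' (fun T => (T.filter (· ∈ S), T.filter (· ∉ S))) (fun p => p.1 ∪ p.2)
    ?_ ?_ ?_ ?_ ?_
  · intro T hT
    simp only [mem_product, mem_powerset] at hT ⊢
    exact ⟨filter_subset_filter _ hT, filter_subset_filter _ hT⟩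
  · intro p hp
    simp only [mem_product, mem_powerset] at hp ⊢
    exact union_subset (hp.1.trans (filter_subset _ _)) (hp.2.trans (filter_subset _ _))
  · intro T _
    exact filter_union_filter_not_eq _ _
  · intro p hp
    simp only [mem_product, mem_powerset] at hp
    have h1 : ∀ z ∈ p.1, z ∈ S := fun z hz => (mem_filter.1 (hp.1 hz)).2
    have h2 : ∀ z ∈ p.2, z ∉ S := fun z hz => (mem_filter.1 (hp.2 hz)).2
    ext z <;> simp only [mem_filter, mem_union] <;> grind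
  · intro T _
    simp only [filter_union_filter_not_eq]

theorem regress (hT : G.IsTree) (hG : ∀ v, (G.neighborSet v).Finite) (hμ : IsFreeIsing G θ μ)
    (h0 : 0 ≤ θ) (h1 : θ < 1) {x v : V} (hxv : G.Adj x v) (F : Finset V)
    {W : (V → Bool) → ℝ} (hW : Dep ((F : Set V) ∩ (side G x v)ᶜ) W) (hpos : ∀ σ, 0 < W σ) :
    ∃ n, |n| ≤ 1 ∧ ∀ f, Dep ((F : Set V) ∩ side G x v) f →
      ∫ σ, f σ * W σ * spin (σ v) ∂μ =
        rA θ n * ∫ σ, f σ * W σ ∂μ + rK θ n * ∫ σ, f σ * W σ * spin (σ x) ∂μ := by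
  obtain ⟨D, hFD, hD⟩ := exists_conn hT.connected hG (insert x (insert v F))
  have hx : x ∈ D := hFD (mem_insert_self _ _)
  have hv : v ∈ D := hFD (mem_insert_of_mem (mem_insert_self _ _))
  have hF : (F : Set V) ⊆ D := fun z hz => hFD (mem_insert_of_mem (mem_insert_of_mem hz))
  set S := side G x v with hS
  have hxS : x ∈ S := mem_side_self x v
  have hvS : v ∉ S := notMem_side hT.isAcyclic hxv
  set ED := (D.sym2.filter (fun e => e ∈ G.edgeSet)).erase s(x, v) with hED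
  set p₁ : (V → Bool) → ℝ := fun η => ∏ e ∈ ED.filter (fun e => ∀ z ∈ e, z ∈ S), ew θ η e
  set p₂ : (V → Bool) → ℝ := fun η => ∏ e ∈ ED.filter (fun e => ¬ ∀ z ∈ e, z ∈ S), ew θ η e
  have hp : ∀ η, ∏ e ∈ D.sym2.filter (fun e => e ∈ G.edgeSet), ew θ η e =
      ew θ η s(x, v) * (p₁ η * p₂ η) := by
    intro η
    rw [prod_filter_mul_prod_filter_not, mul_prod_erase]
    simp [hx, hv, hxv]
  have d1 : Dep S p₁ := by
    intro σ σ' hs
    refine prod_congr rfl fun e he => ?_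
    induction e using Sym2.ind with
    | _ a b =>
      have := (mem_filter.1 he).2
      rw [ew_mk, ew_mk, hs a (this a (by simp)), hs b (this b (by simp))]
  have d2 : Dep Sᶜ p₂ := by
    intro σ σ' hs
    refine prod_congr rfl fun e he => ?_
    induction e using Sym2.ind with
    | _ a b =>
      obtain ⟨g1, g2⟩ := mem_filter.1 he
      obtain ⟨g3, g4⟩ := mem_erase.1 g1
      have hab : G.Adj a b := (mem_filter.1 g4).2
      have g5 : a ∈ S ↔ b ∈ S :=
        ⟨side_adj hab g3, side_adj hab.symm (by rwa [Sym2.eq_swap])⟩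
      simp only [Sym2.mem_iff, forall_eq_or_imp, forall_eq] at g2
      rw [ew_mk, ew_mk, hs a (by tauto), hs b (by tauto)]
  set c : Finset V → ℝ := fun T => W (cfg T) * p₂ (cfg T) with hc
  have hcpos : ∀ T, 0 < c T := fun T => mul_pos (hpos _) (prod_pos fun e _ => ew_pos h0 h1 _ e)
  set Z := ∑ T ∈ (D.filter (· ∉ S)).powerset, c T with hZ
  set N := ∑ T ∈ (D.filter (· ∉ S)).powerset, c T * spin (cfg T v) with hN
  have hZpos : 0 < Z := sum_pos (fun T _ => hcpos T) ⟨∅, empty_mem_powerset _⟩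
  have hn : |N / Z| ≤ 1 := by
    rw [abs_div, abs_of_pos hZpos, div_le_one hZpos]
    refine (abs_sum_le_sum_abs _ _).trans (le_of_eq (sum_congr rfl fun T _ => ?_))
    rw [abs_mul, spin_abs, mul_one, abs_of_pos (hcpos T)]
  refine ⟨N / Z, hn, fun f hf => ?_⟩
  have dfW : Dep D fun σ => f σ * W σ :=
    (hf.mono fun z hz => hF hz.1).mul (hW.mono fun z hz => hF hz.1)
  rw [int_eq_sum hμ hD (dfW.mul (Dep.spin hv)), int_eq_sum hμ hD dfW,
    int_eq_sum hμ hD (dfW.mul (Dep.spin hx)), sum_powerset_split D S, sum_powerset_split D S,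
    sum_powerset_split D S, mul_sum, mul_sum, ← sum_add_distrib]
  refine sum_congr rfl fun T₁ hT₁ => ?_
  have hT₁' : ∀ z ∈ T₁, z ∈ S := fun z hz => (mem_filter.1 (mem_powerset.1 hT₁ hz)).2
  set a := spin (cfg T₁ x)
  have key : ∀ T₂ ∈ (D.filter (· ∉ S)).powerset,
      f (cfg (T₁ ∪ T₂)) = f (cfg T₁) ∧ W (cfg (T₁ ∪ T₂)) = W (cfg T₂) ∧
      spin (cfg (T₁ ∪ T₂) x) = a ∧ spin (cfg (T₁ ∪ T₂) v) = spin (cfg T₂ v) ∧
      ∏ e ∈ D.sym2.filter (fun e => e ∈ G.edgeSet), ew θ (cfg (T₁ ∪ T₂)) e =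
        (1 + θ * (a * spin (cfg T₂ v))) / 2 * (p₁ (cfg T₁) * p₂ (cfg T₂)) := by
    intro T₂ hT₂
    have hT₂' : ∀ z ∈ T₂, z ∉ S := fun z hz => (mem_filter.1 (mem_powerset.1 hT₂ hz)).2
    have q1 : ∀ z ∈ S, cfg (T₁ ∪ T₂) z = cfg T₁ z := fun z hz => by
      have : z ∉ T₂ := fun h => hT₂' z h hz
      simp [cfg, this]
    have q2 : ∀ z ∈ Sᶜ, cfg (T₁ ∪ T₂) z = cfg T₂ z := fun z hz => by
      have : z ∉ T₁ := fun h => hz (hT₁' z h)
      simp [cfg, this]
    refine ⟨hf _ _ fun z hz => q1 z hz.2, hW _ _ fun z hz => q2 z hz.2, by rw [q1 x hxS],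
      by rw [q2 v hvS], ?_⟩
    rw [hp, ew_mk, q1 x hxS, q2 v hvS, d1 _ _ q1, d2 _ _ q2]
  set K := f (cfg T₁) * p₁ (cfg T₁) / 4
  have s1 : ∑ T₂ ∈ (D.filter (· ∉ S)).powerset, f (cfg (T₁ ∪ T₂)) * W (cfg (T₁ ∪ T₂)) *
      spin (cfg (T₁ ∪ T₂) v) * (1 / 2 * ∏ e ∈ D.sym2.filter (fun e => e ∈ G.edgeSet),
        ew θ (cfg (T₁ ∪ T₂)) e) = K * (N + θ * a * Z) := by
    rw [hN, hZ, mul_sum, ← sum_add_distrib, mul_sum]
    refine sum_congr rfl fun T₂ hT₂ => ?_
    obtain ⟨k1, k2, k3, k4, k5⟩ := key T₂ hT₂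
    rw [k1, k2, k4, k5]
    have := spin_sq (cfg T₂ v)
    simp only [hc, K]
    linear_combination (f (cfg T₁) * p₁ (cfg T₁) / 4 * W (cfg T₂) * p₂ (cfg T₂) * θ * a) * this
  have s2 : ∑ T₂ ∈ (D.filter (· ∉ S)).powerset, f (cfg (T₁ ∪ T₂)) * W (cfg (T₁ ∪ T₂)) *
      (1 / 2 * ∏ e ∈ D.sym2.filter (fun e => e ∈ G.edgeSet),
        ew θ (cfg (T₁ ∪ T₂)) e) = K * (Z + θ * a * N) := by
    rw [hN, hZ, mul_sum, ← sum_add_distrib, mul_sum]
    refine sum_congr rfl fun T₂ hT₂ => ?_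
    obtain ⟨k1, k2, k3, k4, k5⟩ := key T₂ hT₂
    rw [k1, k2, k5]
    simp only [hc, K]
    ring
  have s3 : ∑ T₂ ∈ (D.filter (· ∉ S)).powerset, f (cfg (T₁ ∪ T₂)) * W (cfg (T₁ ∪ T₂)) *
      spin (cfg (T₁ ∪ T₂) x) * (1 / 2 * ∏ e ∈ D.sym2.filter (fun e => e ∈ G.edgeSet),
        ew θ (cfg (T₁ ∪ T₂)) e) = a * (K * (Z + θ * a * N)) := by
    rw [← s2, mul_sum]
    refine sum_congr rfl fun T₂ hT₂ => ?_
    rw [(key T₂ hT₂).2.2.1]; ring
  rw [s1, s2, s3]
  obtain ⟨⟨a1, _⟩, a2, _⟩ := mob_den h0 hn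
  obtain ⟨n, hn'⟩ : ∃ n, n = N / Z := ⟨_, rfl⟩
  have hNZ : N = n * Z := by rw [hn', div_mul_cancel₀ _ hZpos.ne']
  rw [← hn'] at a1 a2 ⊢
  have m1 : mob θ n * (1 + θ * n) = n + θ := div_mul_cancel₀ _ (by linarith)
  have m2 : mob (-θ) n * (1 + -θ * n) = n + -θ := div_mul_cancel₀ _ (by linarith)
  rw [hNZ]
  unfold rA rK
  rcases spin_cases (cfg T₁ x) with h | h
  · have : a = 1 := h
    rw [this]; linear_combination (-K * Z) * m1
  · have : a = -1 := h
    rw [this]; linear_combination (-K * Z) * m2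

end Vale.Agent.P161
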