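import Vale.Agent.P161.Est

namespace Vale.Agent.P161

open MeasureTheory Filter Topology Finset
open scoped Classical

variable {V : Type*}

lemma sign_lim {u : ℕ → ℝ} (h1 : Tendsto (fun n => (u (n + 1) - u n) ^ 2) atTop (𝓝 0))
    (h2 : Tendsto (fun n => 1 - u n ^ 2) atTop (𝓝 0)) :
    Tendsto u atTop (𝓝 (spin (decide (∀ᶠ n in atTop, 0 < u n)))) := by
  obtain ⟨N, hN⟩ := eventually_atTop.1 ((h1.eventually (eventually_lt_nhds one_pos)).and
    (h2.eventually (eventually_lt_nhds (show (0 : ℝ) < 1 / 2 by norm_num))))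
  have h3 : Tendsto (fun n => |u n|) atTop (𝓝 1) := by
    have := (h2.const_sub 1).sqrt
    simpa [Real.sqrt_sq_eq_abs] using this
  by_cases hc : ∀ᶠ n in atTop, 0 < u n
  · rw [decide_eq_true hc]
    exact h3.congr' (hc.mono fun n hn => abs_of_pos hn)
  · rw [decide_eq_false hc]
    have hneg : ∀ n ≥ N, u n ≤ 0 := by
      intro n hn
      by_contra hpos
      refine hc (eventually_atTop.2 ⟨n, fun m hm => ?_⟩)
      induction m, hm using Nat.le_induction with
      | base => exact not_le.1 hpos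
      | succ m hm ih =>
        have a1 := hN m (hn.trans hm)
        have a2 := hN (m + 1) (by omega)
        by_contra hle
        nlinarith [mul_nonneg ih.le (neg_nonneg.2 (not_lt.1 hle)), a1.1, a1.2, a2.2]
    refine h3.neg.congr' (eventually_atTop.2 ⟨N, fun n hn => ?_⟩)
    simp only [abs_of_nonpos (hneg n hn), neg_neg]

noncomputable def X (μ : Measure (V → Bool)) (ε : unitInterval) (D : ℕ → Finset V)
    (τ : V × ℕ → ℝ) (n : ℕ) (v : V) (g : V × ℕ → unitInterval) : ℝ :=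
  M μ ε τ (D n ×ˢ range (4 ^ n)) v g

noncomputable def Lim (μ : Measure (V → Bool)) (ε : unitInterval) (D : ℕ → Finset V)
    (τ : V × ℕ → ℝ) (g : V × ℕ → unitInterval) (v : V) : Bool :=
  decide (∀ᶠ n in atTop, 0 < X μ ε D τ n v g)

def Adm (G : SimpleGraph V) (o : V) (r : ℕ → ℕ) (D : ℕ → Finset V) : Prop :=
  ∃ c, ∀ n z, G.dist o z + c < r n → z ∈ D n

def Good (G : SimpleGraph V) (o : V) (r : ℕ → ℕ) (μ : Measure (V → Bool)) (ε : unitInterval) :
    Prop :=
  0 < (ε : ℝ) ∧ Monotone r ∧ (∀ n, n ≤ r n) ∧ ∀ (c : ℕ) (v : V), ∃ C : ℝ, ∀ τ, Sched τ →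
    ∀ (n : ℕ) (D : Set V), (∀ z, G.dist o z + c < r n → z ∈ D) → ∀ B : Finset (V × ℕ),
      (∀ j ∈ B, j.2 ≤ 4 ^ n) → Del μ ε τ D B v ≤ C * (1 / 2) ^ n

variable {G : SimpleGraph V} {θ : ℝ} {μ : Measure (V → Bool)} [IsProbabilityMeasure μ]
  {ε : unitInterval} {τ : V × ℕ → ℝ} {o : V} {r : ℕ → ℕ} {D D' : ℕ → Finset V}

theorem exists_good (hT : G.IsTree) (hG : ∀ v, (G.neighborSet v).Finite) {d : ℕ}
    (hd : ∀ v, (G.neighborSet v).ncard = d) (hμ : IsFreeIsing G θ μ) (h0 : 0 ≤ θ) (h1 : θ < 1)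
    (h2 : θ ^ 2 * (d - 1) < 1) (o : V) : ∃ r ε, Good G o r μ ε := by
  obtain ⟨q, hq1, hq2⟩ : ∃ q, θ ^ 2 < q ∧ q * ((d : ℝ) - 1) < 1 := by
    have : ∀ᶠ q in 𝓝[>] (θ ^ 2), q * ((d : ℝ) - 1) < 1 :=
      nhdsWithin_le_nhds ((continuous_mul_const _).continuousAt.eventually_lt
        continuousAt_const h2)
    obtain ⟨q, h3, h4⟩ := (this.and self_mem_nhdsWithin).exists
    exact ⟨q, h4, h3⟩
  obtain ⟨l, hl1, hl2⟩ : ∃ l : ℝ, 1 < l ∧ l ^ 2 * θ ^ 2 < q := by
    have : ∀ᶠ l in 𝓝[>] (1 : ℝ), l ^ 2 * θ ^ 2 < q :=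
      nhdsWithin_le_nhds (ContinuousAt.eventually_lt (f := fun l : ℝ => l ^ 2 * θ ^ 2)
        (by fun_prop) continuousAt_const (by simpa using hq1))
    obtain ⟨l, h3, h4⟩ := (this.and self_mem_nhdsWithin).exists
    exact ⟨l, h4, h3⟩
  obtain ⟨ε, hε, h⟩ := Del_bound hT hG hd hμ h0 h1 hl1 hl2 hq2 o
  obtain ⟨k, hk⟩ := pow_unbounded_of_one_lt 2 hl1
  have hk0 : 1 ≤ k := by
    rcases k with _ | k
    · norm_num at hk
    · omega
  refine ⟨fun n => k * (4 ^ n + n), ε, hε, fun a b hab => ?_, fun n => ?_, fun c v => ?_⟩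
  · have := Nat.pow_le_pow_right (show 0 < 4 by norm_num) hab
    simp only; gcongr
  · nlinarith [Nat.zero_le (4 ^ n)]
  refine ⟨l ^ G.dist o v * l ^ c, fun τ hτ n D hD B hB => ?_⟩
  refine (h τ hτ D (k * (4 ^ n + n) - c) (fun z hz => hD z (by simp only; omega)) B _ hB v).trans ?_
  have a1 : (2 : ℝ) ^ 4 ^ n * 2 ^ n ≤ l ^ (k * (4 ^ n + n) - c) * l ^ c := by
    rw [← pow_add, ← pow_add]
    calc (2 : ℝ) ^ (4 ^ n + n) ≤ (l ^ k) ^ (4 ^ n + n) := by gcongr
      _ ≤ _ := by rw [← pow_mul]; exact pow_le_pow_right₀ hl1.le (by omega)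
  rw [← mul_div_assoc, div_le_iff₀ (by positivity), one_div, inv_pow]
  calc _ = l ^ G.dist o v * (2 ^ n)⁻¹ * (2 ^ 4 ^ n * 2 ^ n) := by field_simp
    _ ≤ l ^ G.dist o v * (2 ^ n)⁻¹ * (l ^ (k * (4 ^ n + n) - c) * l ^ c) := by gcongr
    _ = _ := by ring

lemma int_tri (A B C : Finset (V × ℕ)) (v : V) :
    ∫ g, (M μ ε τ A v g - M μ ε τ B v g) ^ 2 ∂PN V ≤
      2 * ∫ g, (M μ ε τ A v g - M μ ε τ C v g) ^ 2 ∂PN V +
        2 * ∫ g, (M μ ε τ B v g - M μ ε τ C v g) ^ 2 ∂PN V := by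
  rw [← integral_const_mul, ← integral_const_mul, ← integral_add ((int_dsq _ _ _).const_mul _)
    ((int_dsq _ _ _).const_mul _)]
  refine integral_mono (int_dsq _ _ _) (((int_dsq _ _ _).const_mul _).add
    ((int_dsq _ _ _).const_mul _)) fun g => ?_
  simp only
  nlinarith [sq_nonneg (M μ ε τ A v g + M μ ε τ B v g - 2 * M μ ε τ C v g)]

lemma cmp (hg : Good G o r μ ε) (hτ : Sched τ) (hD : Adm G o r D) (hD' : Adm G o r D') (v : V) :
    Summable fun n => ∫ g, (X μ ε D τ n v g - X μ ε D' τ n v g) ^ 2 ∂PN V := by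
  obtain ⟨c, hc⟩ := hD
  obtain ⟨c', hc'⟩ := hD'
  obtain ⟨C, hC⟩ := hg.2.2.2 c v
  obtain ⟨C', hC'⟩ := hg.2.2.2 c' v
  refine Summable.of_nonneg_of_le (fun n => integral_nonneg fun _ => sq_nonneg _) (fun n => ?_)
    (((summable_geometric_two.mul_left C).mul_left 2).add
      ((summable_geometric_two.mul_left C').mul_left 2))
  have hB : ∀ j ∈ (D n ∪ D' n) ×ˢ range (4 ^ n), j.2 ≤ 4 ^ n := fun j hj =>
    (mem_range.1 (mem_product.1 hj).2).le
  have a1 := hC τ hτ n (D n) (hc n) _ hB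
  have a2 := hC' τ hτ n (D' n) (hc' n) _ hB
  have e : ∀ E ⊆ D n ∪ D' n, Del μ ε τ E ((D n ∪ D' n) ×ˢ range (4 ^ n)) v =
      ∫ g, (M μ ε τ (E ×ˢ range (4 ^ n)) v g -
        M μ ε τ ((D n ∪ D' n) ×ˢ range (4 ^ n)) v g) ^ 2 ∂PN V := by
    intro E hE
    unfold Del
    congr! 5
    ext j
    simp only [mem_filter, mem_product, mem_coe]
    exact ⟨fun h => ⟨h.2, h.1.2⟩, fun h => ⟨⟨hE h.1, h.2⟩, h.1⟩⟩
  rw [e _ subset_union_left] at a1
  rw [e _ subset_union_right] at a2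
  refine (int_tri _ _ ((D n ∪ D' n) ×ˢ range (4 ^ n)) v).trans ?_
  gcongr

lemma info (hg : Good G o r μ ε) (hτ : Sched τ) (hD : Adm G o r D) (v : V) :
    Summable fun n => 1 - Sq μ ε τ (D n ×ˢ range (4 ^ n)) v := by
  obtain ⟨c, hc⟩ := hD
  refine (summable_geometric_two.mul_left (10 / (ε : ℝ))).of_norm_bounded_eventually_nat ?_
  filter_upwards [eventually_gt_atTop (G.dist o v + c)] with n hn
  have h1 := Sq_info (μ := μ) (ε := ε) hτ (hc n v (hn.trans_le (hg.2.2.1 n))) (4 ^ n)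
  have hε := hg.1
  refine abs_le_of_sq_le_sq' ?_ (by positivity) |> abs_le.2
  have e : (10 / (ε : ℝ) * (1 / 2) ^ n) ^ 2 = 1 / (((4 ^ n : ℕ) : ℝ) * (ε ^ 2 / 100)) := by
    rw [mul_pow, ← pow_mul, mul_comm n, pow_mul]
    push_cast
    field_simp
    rw [mul_assoc, ← mul_pow]; norm_num
  rw [e, le_div_iff₀ (by positivity)]
  linarith

lemma measurable_X (D : ℕ → Finset V) (τ : V × ℕ → ℝ) (n : ℕ) (v : V) :
    Measurable (X μ ε D τ n v) := measurable_M τ _ v

lemma ae_cmp (hg : Good G o r μ ε) (hτ : Sched τ) (hD : Adm G o r D) (hD' : Adm G o r D') (v : V) :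
    ∀ᵐ g ∂PN V, Tendsto (fun n => (X μ ε D τ n v g - X μ ε D' τ n v g) ^ 2) atTop (𝓝 0) :=
  P143.ae_tendsto_zero (fun n => ((measurable_X D τ n v).sub (measurable_X D' τ n v)).pow_const 2)
    (fun _ _ => sq_nonneg _) (fun _ => int_dsq _ _ _) (cmp hg hτ hD hD' v)

theorem ae_lim (hg : Good G o r μ ε) (hτ : Sched τ) (hD : Adm G o r D) (v : V) :
    ∀ᵐ g ∂PN V, Tendsto (fun n => X μ ε D τ n v g) atTop (𝓝 (spin (Lim μ ε D τ g v))) := by
  have hD' : Adm G o r fun n => D (n + 1) := by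
    obtain ⟨c, hc⟩ := hD
    exact ⟨c, fun n z hz => hc _ z (hz.trans_le (hg.2.1 n.le_succ))⟩
  have h1 : ∀ᵐ g ∂PN V, Tendsto (fun n => (X μ ε D τ (n + 1) v g - X μ ε D τ n v g) ^ 2)
      atTop (𝓝 0) := by
    refine P143.ae_tendsto_zero
      (fun n => ((measurable_X D τ _ v).sub (measurable_X D τ n v)).pow_const 2)
      (fun _ _ => sq_nonneg _) (fun _ => int_dsq _ _ _) ?_
    refine Summable.of_nonneg_of_le (fun n => integral_nonneg fun _ => sq_nonneg _) (fun n => ?_)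
      (((info hg hτ hD' v).mul_left 2).add ((cmp hg hτ hD hD' v).mul_left 2))
    refine (int_tri _ _ (D (n + 1) ×ˢ range (4 ^ n)) v).trans (add_le_add ?_ le_rfl)
    exact mul_le_mul_of_nonneg_left (Sq_time hτ _ v
      (Nat.pow_le_pow_right (by norm_num) n.le_succ)) (by norm_num)
  have h2 : ∀ᵐ g ∂PN V, Tendsto (fun n => 1 - X μ ε D τ n v g ^ 2) atTop (𝓝 0) := by
    refine P143.ae_tendsto_zero (fun n => ((measurable_X D τ n v).pow_const 2).const_sub 1)
      (fun n g => ?_) (fun _ => (integrable_const _).sub (int_Msq _ _)) ?_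
    · have := sqle (M_abs (μ := μ) (ε := ε) (τ := τ) (g := g) (B := D n ×ˢ range (4 ^ n)) v)
      unfold X; linarith
    · refine (info hg hτ hD v).congr fun n => ?_
      unfold X
      rw [integral_sub (integrable_const _) (int_Msq _ _)]
      simp [Sq]
  filter_upwards [h1, h2] with g g1 g2
  exact sign_lim g1 g2

theorem ae_Lim_eq (hg : Good G o r μ ε) (hτ : Sched τ) (hD : Adm G o r D) (hD' : Adm G o r D')
    (v : V) : ∀ᵐ g ∂PN V, Lim μ ε D τ g v = Lim μ ε D' τ g v := by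
  filter_upwards [ae_cmp hg hτ hD hD' v, ae_lim hg hτ hD v, ae_lim hg hτ hD' v] with g g1 g2 g3
  have := tendsto_nhds_unique ((g2.sub g3).pow 2) g1
  revert this
  cases Lim μ ε D τ g v <;> cases Lim μ ε D' τ g v <;> norm_num [spin]

lemma measurable_Lim {Ω : Type*} [MeasurableSpace Ω] {τ : Ω → V × ℕ → ℝ} (hτ : Measurable τ)
    {g : Ω → V × ℕ → unitInterval} (hg : Measurable g) :
    Measurable fun ω => Lim μ ε D (τ ω) (g ω) := by
  refine measurable_pi_iff.2 fun v => measurable_to_bool ?_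
  have : (fun ω => Lim μ ε D (τ ω) (g ω) v) ⁻¹' {true} =
      {ω | ∃ a, ∀ b, a ≤ b → 0 < X μ ε D (τ ω) b v (g ω)} := by
    ext ω; simp [Lim]
  rw [this]
  refine Measurable.setOf (Measurable.exists fun a => Measurable.forall fun b =>
    Measurable.imp measurable_const ?_)
  exact measurableSet_setOfPred.1 (measurableSet_lt measurable_const
    (measurable_pst hτ hg _ (FDep.spin v).measurable))

lemma post_close {B : Finset (V × ℕ)} {y : V × ℕ → ℝ} (hy : ∀ i, |y i| ≤ 1) {F : Finset V}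
    {ψ : (V → Bool) → ℝ} (h : Dep F ψ) (h1 : ∀ σ, |ψ σ| ≤ 1) (η : V → Bool) :
    |post μ B y ψ - ψ η| ≤ ∑ v ∈ F, (1 - spin (η v) * mag μ B y v) := by
  set χ : (V → Bool) → ℝ := fun σ => ∑ v ∈ F, (1 * 1 + -spin (η v) * spin (σ v)) with hχ
  have d0 : FDep fun _ : V → Bool => (1 : ℝ) := ⟨∅, Dep.const _ _⟩
  have d1 : FDep χ := ⟨F, fun σ σ' hs => sum_congr rfl fun v hv => by rw [hs v hv]⟩
  have e1 : post μ B y χ = ∑ v ∈ F, (1 - spin (η v) * mag μ B y v) := by
    calc _ = ∑ v ∈ F, post μ B y (fun σ => 1 * 1 + -spin (η v) * spin (σ v)) := by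
          simp only [post, hχ, sum_mul]
          rw [integral_finsetSum, sum_div]
          intro v _
          exact (FDep.mul ⟨{v}, fun σ σ' hs => by rw [hs v (by simp)]⟩
            (FDep.wgt B y)).integrable μ
      _ = _ := sum_congr rfl fun v _ => by
          rw [post_lin d0 (FDep.spin v), post_const hy, mag]; ring
  have e2 : ∀ σ, |ψ σ - ψ η| ≤ χ σ := by
    intro σ
    have n0 : ∀ v ∈ F, 0 ≤ 1 * 1 + -spin (η v) * spin (σ v) := fun v _ => by
      rcases spin_cases (η v) with a | a <;> rcases spin_cases (σ v) with b | b <;>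
        norm_num [a, b]
    by_cases c : ∀ v ∈ F, σ v = η v
    · rw [h σ η c, sub_self, abs_zero]; exact sum_nonneg n0
    · simp only [not_forall] at c
      obtain ⟨v, hv, c⟩ := c
      refine le_trans ?_ (single_le_sum n0 hv)
      have : 1 * 1 + -spin (η v) * spin (σ v) = 2 := by
        revert c; cases σ v <;> cases η v <;> norm_num [spin]
      rw [this]
      exact (abs_sub _ _).trans (by linarith [h1 σ, h1 η])
  have d2 : ∀ a b : ℝ, FDep fun σ => a * 1 + b * χ σ := fun a b =>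
    ⟨F, fun σ σ' hs => by
      have : χ σ = χ σ' := sum_congr rfl fun v hv => by rw [hs v hv]
      simp only [this]⟩
  have a1 := post_mono (μ := μ) (B := B) hy ⟨F, h⟩ (d2 (ψ η) 1) fun σ => by
    linarith [(abs_le.1 (e2 σ)).2]
  have a2 := post_mono (μ := μ) (B := B) hy (d2 (ψ η) (-1)) ⟨F, h⟩ fun σ => by
    linarith [(abs_le.1 (e2 σ)).1]
  rw [post_lin d0 d1, post_const hy, e1] at a1 a2
  rw [abs_le]; constructor <;> linarith

theorem law_Lim [Countable V] (hg : Good G o r μ ε) (hτ : Sched τ) (hD : Adm G o r D) :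
    (PN V).map (Lim μ ε D τ) = μ := by
  have hm : Measurable (Lim μ ε D τ) := measurable_Lim measurable_const measurable_id
  have := Measure.isProbabilityMeasure_map (μ := PN V) hm.aemeasurable
  refine ext_cyl fun F η => ?_
  set ψ := {σ : V → Bool | ∀ v ∈ F, σ v = η v}.indicator (1 : (V → Bool) → ℝ) with hψ
  have hd : Dep F ψ := by
    intro σ σ' hs
    have : (∀ v ∈ F, σ v = η v) ↔ ∀ v ∈ F, σ' v = η v :=
      forall₂_congr fun v hv => by rw [hs v hv]
    simp only [hψ, Set.indicator_apply, Set.mem_ofPred_eq, this, Pi.one_apply]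
  have h1 : ∀ σ, |ψ σ| ≤ 1 := fun σ => by
    simp only [hψ, Set.indicator_apply]; split_ifs <;> simp
  rw [← integral_indicator_one (measurableSet_cyl F η),
    ← integral_indicator_one (measurableSet_cyl F η),
    integral_map hm.aemeasurable hd.measurable.aestronglyMeasurable]
  have h2 : Tendsto (fun n => ∫ g, pst μ ε τ (D n ×ˢ range (4 ^ n)) ψ g ∂PN V) atTop
      (𝓝 (∫ g, ψ (Lim μ ε D τ g) ∂PN V)) := by
    refine tendsto_integral_of_dominated_convergence (fun _ => 1)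
      (fun n => (measurable_pst' τ _ ⟨F, hd⟩).aestronglyMeasurable) (integrable_const _)
      (fun n => Eventually.of_forall fun g => post_abs ys_abs ⟨F, hd⟩ h1) ?_
    filter_upwards [ae_all_iff.2 (ae_lim hg hτ hD)] with g hg
    rw [tendsto_iff_norm_sub_tendsto_zero]
    refine squeeze_zero (fun _ => norm_nonneg _) (fun n => post_close ys_abs hd h1 _) ?_
    have := tendsto_finsetSum F fun v _ => ((hg v).const_mul (spin (Lim μ ε D τ g v))).const_sub 1
    simp only [spin_sq, sub_self, sum_const_zero] at this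
    exact this
  simp only [mart_total hτ.1 ⟨F, hd⟩ h1] at h2
  exact (tendsto_nhds_unique tendsto_const_nhds h2).symm

end Vale.Agent.P161
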