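import Vale.Agent.P161.Lim

namespace Vale.Agent.P161

open MeasureTheory Filter Topology Finset
open scoped Classical

variable {V : Type*} {G : SimpleGraph V} {θ : ℝ} {μ : Measure (V → Bool)} {ε : unitInterval}

def ex (γ : G ≃g G) : V × ℕ ≃ V × ℕ := γ.toEquiv.prodCongr (Equiv.refl ℕ)

lemma post_map (γ : G ≃g G) (hinv : μ.map (fun σ v => σ (γ v)) = μ) (B : Finset (V × ℕ))
    (y : V × ℕ → ℝ) {ψ : (V → Bool) → ℝ} (hψ : FDep ψ) :
    post μ (B.map (ex γ).toEmbedding) y (fun σ => ψ fun v => σ (γ v)) =
      post μ B (fun j => y (ex γ j)) ψ := by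
  have hm : Measurable fun (σ : V → Bool) v => σ (γ v) := by fun_prop
  have hw : ∀ σ, wgt (B.map (ex γ).toEmbedding) y σ =
      wgt B (fun j => y (ex γ j)) fun v => σ (γ v) := fun σ => prod_map _ _ _
  have hi : ∀ k : (V → Bool) → ℝ, FDep k → ∫ σ, k (fun v => σ (γ v)) ∂μ = ∫ σ, k σ ∂μ := by
    intro k hk
    conv_rhs => rw [← hinv]
    rw [integral_map hm.aemeasurable hk.measurable.aestronglyMeasurable]
  simp only [post, hw]
  rw [hi _ (hψ.mul (FDep.wgt B _)), hi _ (FDep.wgt B _)]

lemma pst_map (γ : G ≃g G) (hinv : μ.map (fun σ v => σ (γ v)) = μ) (τ : V × ℕ → ℝ)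
    (g : V × ℕ → unitInterval) (B : Finset (V × ℕ)) {ψ : (V → Bool) → ℝ} (hψ : FDep ψ) :
    pst μ ε τ (B.map (ex γ).toEmbedding) (fun σ => ψ fun v => σ (γ v)) g =
      pst μ ε (fun j => τ (ex γ j)) B ψ fun j => g (ex γ j) := by
  induction B using Finset.strongInduction generalizing ψ with
  | H B ih =>
    rw [pst, post_map γ hinv B _ hψ]
    refine post_congr (fun j hj => ?_) ψ
    have := ih (B.filter fun l => τ (ex γ l) < τ (ex γ j))
      (filter_ssubset.2 ⟨j, hj, lt_irrefl (τ (ex γ j))⟩) (FDep.spin j.1)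
    rw [ys, ys, if_pos hj, if_pos (show ex γ j ∈ B.map (ex γ).toEmbedding from
      mem_map_of_mem _ hj), Ys_eq, Ys_eq, M, M, ← this, filter_map]
    rfl

lemma Lim_map (γ : G ≃g G) (hinv : μ.map (fun σ v => σ (γ v)) = μ) (D : ℕ → Finset V)
    (τ : V × ℕ → ℝ) (g : V × ℕ → unitInterval) (v : V) :
    Lim μ ε D (fun j => τ (ex γ j)) (fun j => g (ex γ j)) v =
      Lim μ ε (fun n => (D n).map γ.toEquiv.toEmbedding) τ g (γ v) := by
  have : ∀ n, X μ ε D (fun j => τ (ex γ j)) n v (fun j => g (ex γ j)) =
      X μ ε (fun n => (D n).map γ.toEquiv.toEmbedding) τ n (γ v) g := by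
    intro n
    rw [X, X, M, M, ← pst_map γ hinv τ g _ (FDep.spin v)]
    congr 1
    ext j
    simp [ex, mem_map_equiv]
  simp only [Lim, this]

lemma dist_iso (hc : G.Connected) (γ : G ≃g G) (u v : V) : G.dist (γ u) (γ v) ≤ G.dist u v := by
  obtain ⟨p, hp⟩ := hc.exists_walk_length_eq_dist u v
  have := SimpleGraph.dist_le (p.map γ.toHom)
  rwa [SimpleGraph.Walk.length_map, hp] at this

lemma Adm.map (hc : G.Connected) {o : V} {r : ℕ → ℕ} {D : ℕ → Finset V} (h : Adm G o r D)
    (γ : G ≃g G) : Adm G o r fun n => (D n).map γ.toEquiv.toEmbedding := by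
  obtain ⟨c, h⟩ := h
  refine ⟨G.dist o (γ.symm o) + c, fun n z hz => mem_map_equiv.2 (h n _ ?_)⟩
  have h1 := hc.dist_triangle (u := o) (v := γ.symm o) (w := γ.symm z)
  have h2 := dist_iso hc γ.symm o z
  change G.dist o (γ.symm z) + c < r n
  omega

noncomputable def split : unitInterval → ℕ → unitInterval :=
  Classical.choose (Measure.exists_measurable_map_eq
    (Measure.infinitePi fun _ : ℕ => (volume : Measure unitInterval)))

lemma measurable_split : Measurable split :=
  (Classical.choose_spec (Measure.exists_measurable_map_eq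
    (Measure.infinitePi fun _ : ℕ => (volume : Measure unitInterval)))).1

lemma map_split : (volume : Measure unitInterval).map split =
    Measure.infinitePi fun _ : ℕ => (volume : Measure unitInterval) :=
  (Classical.choose_spec (Measure.exists_measurable_map_eq
    (Measure.infinitePi fun _ : ℕ => (volume : Measure unitInterval)))).2

noncomputable def pair (U : V → unitInterval) :
    (V × ℕ → unitInterval) × (V × ℕ → unitInterval) :=
  (fun p => split (U p.1) (2 * p.2), fun p => split (U p.1) (2 * p.2 + 1))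

lemma measurable_pair : Measurable (pair : (V → unitInterval) → _) := by
  have := measurable_split
  unfold pair
  fun_prop

lemma map_pair : (Measure.infinitePi fun _ : V => (volume : Measure unitInterval)).map pair =
    (PN V).prod (PN V) := by
  have h1 : (Measure.infinitePi fun _ : V => (volume : Measure unitInterval)).map
      (fun U v => split (U v)) = Measure.infinitePi fun _ : V =>
        Measure.infinitePi fun _ : ℕ => (volume : Measure unitInterval) := by
    rw [Measure.infinitePi_map_pi _ (f := fun _ => split) fun _ => measurable_split]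
    simp only [map_split]
  have h2 := Measure.infinitePi_map_curry_symm
    (fun (_ : V) (_ : ℕ) => (volume : Measure unitInterval))
  set κ : Bool × (V × ℕ) → V × ℕ := fun p => (p.2.1, 2 * p.2.2 + p.1.toNat) with hκ
  have hinj : Function.Injective κ := by
    rintro ⟨b, v, k⟩ ⟨b', v', k'⟩ h
    simp only [hκ, Prod.mk.injEq] at h
    obtain ⟨rfl, h⟩ := h
    cases b <;> cases b' <;> simp at h ⊢ <;> omega
  have h3 := Measure.map_infinitePi_infinitePi_of_inj
    (P := fun _ : V × ℕ => (volume : Measure unitInterval)) hinj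
  have h4 := Measure.infinitePi_map_curry
    (fun (_ : Bool) (_ : V × ℕ) => (volume : Measure unitInterval))
  have h5 := Measure.infinitePi_map_eval_prod (P := fun _ : Bool => PN V)
    (i := false) (j := true) (by simp)
  have hs := measurable_split
  rw [← h5]
  unfold PN
  rw [← h4, ← h3, ← h2, ← h1, Measure.map_map, Measure.map_map, Measure.map_map, Measure.map_map]
  · rfl
  all_goals fun_prop

noncomputable def tm (w : V × ℕ → unitInterval) (i : V × ℕ) : ℝ := i.2 + (w i : ℝ) / 2

lemma measurable_tm : Measurable (tm : (V × ℕ → unitInterval) → _) := by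
  unfold tm; fun_prop

lemma ae_sched [Countable V] : ∀ᵐ w ∂PN V, Sched (tm w) := by
  have h : ∀ᵐ w ∂PN V, ∀ a b : V × ℕ, a ≠ b → w a ≠ w b := by
    refine ae_all_iff.2 fun a => ae_all_iff.2 fun b => ?_
    by_cases hab : a = b
    · simp [hab]
    have h1 := Measure.infinitePi_map_eval_prod
      (P := fun _ : V × ℕ => (volume : Measure unitInterval)) hab
    have h2 : ∀ᵐ p ∂((volume : Measure unitInterval).prod (volume : Measure unitInterval)),
        p.1 ≠ p.2 := by
      refine (Measure.ae_prod_iff_ae_ae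
        (measurableSet_eq_fun measurable_fst measurable_snd).compl).2 ?_
      exact Eventually.of_forall fun x => (Measure.ae_ne _ x).mono fun y hy => hy.symm
    rw [← h1] at h2
    exact (ae_of_ae_map (by fun_prop) h2).mono fun w hw _ => hw
  filter_upwards [h] with w hw
  have hb : ∀ i, (i.2 : ℝ) ≤ tm w i ∧ tm w i < i.2 + 1 := fun i => by
    unfold tm; constructor <;> linarith [(w i).2.1, (w i).2.2]
  refine ⟨fun a b hab => by_contra fun hne => hw a b hne (Subtype.ext ?_), hb⟩
  have h1 : a.2 < b.2 + 1 := by exact_mod_cast ((hb a).1.trans hab.le).trans_lt (hb b).2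
  have h2 : b.2 < a.2 + 1 := by exact_mod_cast ((hb b).1.trans hab.ge).trans_lt (hb a).2
  have h3 : a.2 = b.2 := by omega
  unfold tm at hab
  rw [h3] at hab
  linarith

theorem isFactor (hT : G.IsTree) (hG : ∀ v, (G.neighborSet v).Finite) {d : ℕ}
    (hd : ∀ v, (G.neighborSet v).ncard = d) (hμ : IsFreeIsing G θ μ) (h0 : 0 ≤ θ) (h1 : θ < 1)
    (h2 : θ ^ 2 * (d - 1) < 1) : IsFactorOfIID G μ := by
  have := hμ.1
  have hc := hT.connected
  have := P143.countable_of_conn hc hG
  obtain ⟨o⟩ := hc.nonempty
  obtain ⟨r, ε, hg⟩ := exists_good hT hG hd hμ h0 h1 h2 o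
  set D : ℕ → Finset V := fun n => (P143.ball_finite hG o (r n)).toFinset
  have hD : Adm G o r D := ⟨0, fun n z hz =>
    (Set.Finite.mem_toFinset _).2 (mem_ball_of_dist hc o _ z (by omega))⟩
  have hm : ∀ D : ℕ → Finset V, Measurable fun p : (V × ℕ → unitInterval) ×
      (V × ℕ → unitInterval) => Lim μ ε D (tm p.1) p.2 := fun D =>
    measurable_Lim (measurable_tm.comp measurable_fst) measurable_snd
  refine ⟨fun U => Lim μ ε D (tm (pair U).1) (pair U).2, (hm D).comp measurable_pair, ?_,
    fun γ => ?_⟩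
  · have e := Measure.map_map (μ := Measure.infinitePi fun _ : V => volume) (hm D) measurable_pair
    rw [map_pair] at e
    refine e.symm.trans ?_
    ext s hs
    rw [Measure.map_apply (hm D) hs, Measure.prod_apply (hm D hs),
      lintegral_congr_ae (g := fun _ => μ s), lintegral_const, measure_univ, mul_one]
    filter_upwards [ae_sched] with w hw
    conv_rhs => rw [← law_Lim hg hw hD]
    have hm' : Measurable (Lim μ ε D (tm w)) := measurable_Lim measurable_const measurable_id
    rw [Measure.map_apply hm' hs]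
    rfl
  · have h3 : ∀ᵐ p ∂(PN V).prod (PN V), ∀ v, Lim μ ε
        (fun n => (D n).map γ.symm.toEquiv.toEmbedding) (tm p.1) p.2 v =
          Lim μ ε D (tm p.1) p.2 v := by
      refine ae_all_iff.2 fun v => (Measure.ae_prod_iff_ae_ae (measurableSet_eq_fun
        ((measurable_pi_apply v).comp (hm _)) ((measurable_pi_apply v).comp (hm _)))).2 ?_
      filter_upwards [ae_sched] with w hw
      exact ae_Lim_eq hg hw (hD.map hc γ.symm) hD v
    rw [← map_pair] at h3
    filter_upwards [ae_of_ae_map measurable_pair.aemeasurable h3] with U hU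
    funext v
    rw [← hU, ← Lim_map γ.symm (ising_inv hc hG hμ γ.symm)]
    rfl

end Vale.Agent.P161
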