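import Vale.Agent.P161.Ising

namespace Vale.Agent.P161

open MeasureTheory Filter Topology Finset
open scoped Classical

variable {V : Type*}

noncomputable def wgt (B : Finset (V × ℕ)) (y : V × ℕ → ℝ) (σ : V → Bool) : ℝ :=
  ∏ i ∈ B, (1 + y i / 2 * spin (σ i.1))

noncomputable def post (μ : Measure (V → Bool)) (B : Finset (V × ℕ)) (y : V × ℕ → ℝ)
    (ψ : (V → Bool) → ℝ) : ℝ :=
  (∫ σ, ψ σ * wgt B y σ ∂μ) / ∫ σ, wgt B y σ ∂μ

noncomputable def mag (μ : Measure (V → Bool)) (B : Finset (V × ℕ)) (y : V × ℕ → ℝ) (v : V) : ℝ :=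
  post μ B y fun σ => spin (σ v)

noncomputable def cov (μ : Measure (V → Bool)) (B : Finset (V × ℕ)) (y : V × ℕ → ℝ) (v u : V) :
    ℝ := post μ B y (fun σ => spin (σ v) * spin (σ u)) - mag μ B y v * mag μ B y u

lemma fac_pos {y : ℝ} (hy : |y| ≤ 1) (b : Bool) : 1 / 2 ≤ 1 + y / 2 * spin b := by
  rw [abs_le] at hy
  rcases spin_cases b with h | h <;> rw [h] <;> linarith [hy.1, hy.2]

lemma wgt_pos {B : Finset (V × ℕ)} {y : V × ℕ → ℝ} (hy : ∀ i, |y i| ≤ 1) (σ : V → Bool) :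
    0 < wgt B y σ := prod_pos fun i _ => by linarith [fac_pos (hy i) (σ i.1)]

lemma wgt_dep (B : Finset (V × ℕ)) (y : V × ℕ → ℝ) {D : Set V} (h : ∀ i ∈ B, i.1 ∈ D) :
    Dep D (wgt B y) := fun σ σ' hs => prod_congr rfl fun i hi => by rw [hs _ (h i hi)]

def FDep (k : (V → Bool) → ℝ) : Prop := ∃ F : Finset V, Dep F k

lemma FDep.mul {k k' : (V → Bool) → ℝ} (h : FDep k) (h' : FDep k') : FDep fun σ => k σ * k' σ := by
  obtain ⟨F, h⟩ := h
  obtain ⟨F', h'⟩ := h'
  exact ⟨F ∪ F', (h.mono (by simp)).mul (h'.mono (by simp))⟩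

lemma FDep.spin (v : V) : FDep fun σ => spin (σ v) := ⟨{v}, Dep.spin (by simp)⟩

lemma FDep.wgt (B : Finset (V × ℕ)) (y : V × ℕ → ℝ) : FDep (wgt B y) :=
  ⟨B.image Prod.fst, wgt_dep B y fun i hi => by simpa using ⟨i.2, hi⟩⟩

lemma FDep.integrable {k : (V → Bool) → ℝ} (h : FDep k) (μ : Measure (V → Bool))
    [IsFiniteMeasure μ] : Integrable k μ := by
  obtain ⟨F, h⟩ := h; exact h.integrable μ

lemma FDep.measurable {k : (V → Bool) → ℝ} (h : FDep k) : Measurable k := by
  obtain ⟨F, h⟩ := h; exact h.measurable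

variable {μ : Measure (V → Bool)} [IsProbabilityMeasure μ] {B : Finset (V × ℕ)} {y : V × ℕ → ℝ}

lemma Z_pos (hy : ∀ i, |y i| ≤ 1) : 0 < ∫ σ, wgt B y σ ∂μ := by
  have h1 : ∫ _σ, ((1 : ℝ) / 2) ^ B.card ∂μ ≤ ∫ σ, wgt B y σ ∂μ := by
    refine integral_mono (integrable_const _) ((FDep.wgt B y).integrable μ) fun σ => ?_
    simp only [wgt]
    rw [← prod_const]
    exact prod_le_prod (fun _ _ => by norm_num) fun i _ => fac_pos (hy i) _
  rw [integral_const, probReal_univ, one_smul] at h1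
  exact lt_of_lt_of_le (by positivity) h1

lemma post_mono (hy : ∀ i, |y i| ≤ 1) {ψ ψ' : (V → Bool) → ℝ} (h : FDep ψ) (h' : FDep ψ')
    (hle : ∀ σ, ψ σ ≤ ψ' σ) : post μ B y ψ ≤ post μ B y ψ' :=
  div_le_div_of_nonneg_right (integral_mono ((h.mul (FDep.wgt B y)).integrable μ)
    ((h'.mul (FDep.wgt B y)).integrable μ) fun σ =>
      mul_le_mul_of_nonneg_right (hle σ) (wgt_pos hy σ).le) (Z_pos hy).le

lemma post_const (hy : ∀ i, |y i| ≤ 1) (c : ℝ) : post μ B y (fun _ => c) = c := by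
  rw [post, integral_const_mul, mul_div_cancel_right₀ _ (Z_pos hy).ne']

lemma post_lin {ψ ψ' : (V → Bool) → ℝ} (h : FDep ψ) (h' : FDep ψ') (a b : ℝ) :
    post μ B y (fun σ => a * ψ σ + b * ψ' σ) = a * post μ B y ψ + b * post μ B y ψ' := by
  simp only [post, add_mul, mul_assoc]
  rw [integral_add (((h.mul (FDep.wgt B y)).integrable μ).const_mul a)
    (((h'.mul (FDep.wgt B y)).integrable μ).const_mul b), integral_const_mul, integral_const_mul]
  ring

lemma post_abs (hy : ∀ i, |y i| ≤ 1) {ψ : (V → Bool) → ℝ} (h : FDep ψ) (h1 : ∀ σ, |ψ σ| ≤ 1) :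
    |post μ B y ψ| ≤ 1 := by
  rw [abs_le]
  constructor
  · rw [← post_const (μ := μ) (B := B) hy (-1)]
    exact post_mono hy ⟨∅, Dep.const _ _⟩ h fun σ => (abs_le.1 (h1 σ)).1
  · rw [← post_const (μ := μ) (B := B) hy 1]
    exact post_mono hy h ⟨∅, Dep.const _ _⟩ fun σ => (abs_le.1 (h1 σ)).2

lemma mag_abs (hy : ∀ i, |y i| ≤ 1) (v : V) : |mag μ B y v| ≤ 1 :=
  post_abs hy (FDep.spin v) fun σ => (spin_abs _).le

omit [IsProbabilityMeasure μ] in
lemma post_congr {y' : V × ℕ → ℝ} (h : ∀ i ∈ B, y i = y' i) (ψ : (V → Bool) → ℝ) :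
    post μ B y ψ = post μ B y' ψ := by
  have : wgt B y = wgt B y' := funext fun σ => prod_congr rfl fun i hi => by rw [h i hi]
  rw [post, post, this]

lemma post_insert (hy : ∀ i, |y i| ≤ 1) {i : V × ℕ} (hi : i ∉ B) {ψ : (V → Bool) → ℝ}
    (h : FDep ψ) : post μ (insert i B) y ψ =
      (post μ B y ψ + post μ B y (fun σ => ψ σ * spin (σ i.1)) / 2 * y i) /
        (1 + mag μ B y i.1 / 2 * y i) := by
  have hZ := Z_pos (μ := μ) (B := B) hy
  have key : ∀ φ : (V → Bool) → ℝ, FDep φ → ∫ σ, φ σ * wgt (insert i B) y σ ∂μ =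
      ∫ σ, φ σ * wgt B y σ ∂μ + y i / 2 * ∫ σ, φ σ * spin (σ i.1) * wgt B y σ ∂μ := by
    intro φ hφ
    rw [← integral_const_mul, ← integral_add ((hφ.mul (FDep.wgt B y)).integrable μ)
      ((((hφ.mul (FDep.spin i.1)).mul (FDep.wgt B y)).integrable μ).const_mul _)]
    congr 1; funext σ
    simp only [wgt]
    rw [prod_insert hi]; ring
  have k1 := key (fun _ => 1) ⟨∅, Dep.const _ _⟩
  simp only [one_mul] at k1
  rw [post, key ψ h, k1, mag, post, post, post]
  rw [← mul_div_mul_right (c := (∫ σ, wgt B y σ ∂μ)⁻¹) _ _ (inv_pos.2 hZ).ne']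
  congr 1 <;> field_simp

lemma cov_self (hy : ∀ i, |y i| ≤ 1) (u : V) : cov μ B y u u = 1 - mag μ B y u ^ 2 := by
  simp only [cov, spin_sq]
  rw [post_const hy, sq]

variable {G : SimpleGraph V} {θ : ℝ}

lemma regress_post (hT : G.IsTree) (hG : ∀ v, (G.neighborSet v).Finite)
    (hμ : IsFreeIsing G θ μ) (h0 : 0 ≤ θ) (h1 : θ < 1) (hy : ∀ i, |y i| ≤ 1) {x v u : V}
    (hxv : G.Adj x v) (hu : u ∈ side G x v) :
    ∃ n, |n| ≤ 1 ∧ mag μ B y v = rA θ n + rK θ n * mag μ B y x ∧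
      cov μ B y v u = rK θ n * cov μ B y x u := by
  set S := side G x v
  set F := insert u (B.image Prod.fst)
  have hF : ∀ i ∈ B, i.1 ∈ F := fun i hi => mem_insert_of_mem (mem_image_of_mem _ hi)
  obtain ⟨n, hn, h⟩ := regress hT hG hμ h0 h1 hxv F (W := wgt (B.filter fun i => i.1 ∉ S) y)
    (wgt_dep _ y fun i hi => ⟨hF i (mem_filter.1 hi).1, (mem_filter.1 hi).2⟩) (wgt_pos hy)
  have d1 : Dep ((F : Set V) ∩ S) (wgt (B.filter fun i => i.1 ∈ S) y) :=
    wgt_dep _ y fun i hi => ⟨hF i (mem_filter.1 hi).1, (mem_filter.1 hi).2⟩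
  have hw : ∀ σ, wgt (B.filter fun i => i.1 ∈ S) y σ * wgt (B.filter fun i => i.1 ∉ S) y σ =
      wgt B y σ := fun σ => prod_filter_mul_prod_filter_not _ _ _
  have a1 := h _ d1
  have a2 := h _ ((Dep.spin (D := (F : Set V) ∩ S) (v := u) ⟨mem_insert_self _ _, hu⟩).mul d1)
  simp only [hw] at a1
  simp only [mul_assoc (spin _), hw] at a2
  have hZ := Z_pos (μ := μ) (B := B) hy
  have b1 : mag μ B y v = rA θ n + rK θ n * mag μ B y x := by
    simp only [mag, post, mul_comm (spin _)]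
    rw [a1]; field_simp
  refine ⟨n, hn, b1, ?_⟩
  have b2 : post μ B y (fun σ => spin (σ v) * spin (σ u)) = rA θ n * mag μ B y u +
      rK θ n * post μ B y (fun σ => spin (σ x) * spin (σ u)) := by
    have e : ∀ z, (fun σ => spin (σ z) * spin (σ u) * wgt B y σ) =
        fun σ => spin (σ u) * (wgt B y σ * spin (σ z)) := fun z => funext fun σ => by ring
    simp only [mag, post, e]
    rw [a2]; field_simp
  rw [cov, cov, b2, b1]; ring

lemma cov_abs (hT : G.IsTree) (hG : ∀ v, (G.neighborSet v).Finite)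
    (hμ : IsFreeIsing G θ μ) (h0 : 0 ≤ θ) (h1 : θ < 1) (hy : ∀ i, |y i| ≤ 1) (u : V) (k : ℕ) :
    ∀ v, G.dist u v = k → |cov μ B y v u| ≤ θ ^ k := by
  induction k with
  | zero =>
    intro v hv
    obtain rfl := hT.connected.dist_eq_zero_iff.1 hv
    have := mag_abs (μ := μ) (B := B) hy u
    have h2 : mag μ B y u ^ 2 ≤ 1 := by rw [← sq_abs]; exact pow_le_one₀ (abs_nonneg _) this
    rw [cov_self hy, abs_of_nonneg (by linarith)]
    nlinarith
  | succ k ih =>
    intro v hv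
    obtain ⟨x, h2, h3, h4⟩ := exists_toward hT.connected (u := u) (v := v)
      (by rintro rfl; simp at hv)
    obtain ⟨n, hn, _, h5⟩ := regress_post (B := B) hT hG hμ h0 h1 hy h2 h4
    rw [h5, abs_mul, pow_succ']
    exact mul_le_mul (rK_bound h0 h1 hn) (ih x (by omega)) (abs_nonneg _) h0

lemma dist_adj (hc : G.Connected) (o : V) {x v : V} (h : G.Adj x v) :
    G.dist o x ≤ G.dist o v + 1 := by
  have := hc.dist_triangle (u := o) (v := v) (w := x)
  rwa [SimpleGraph.dist_eq_one_iff_adj.2 h.symm] at this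

omit [IsProbabilityMeasure μ] in
lemma abs_add_sq (a b : ℝ) : (|a| + |b|) ^ 2 ≤ 2 * (a ^ 2 + b ^ 2) := by
  nlinarith [sq_abs a, sq_abs b, sq_nonneg (|a| - |b|)]

omit [IsProbabilityMeasure μ] in
lemma young (α β : ℝ) {l : ℝ} (hl : 1 < l) : (α + β) ^ 2 ≤ l * α ^ 2 + l / (l - 1) * β ^ 2 := by
  have hl1 : 0 < l - 1 := by linarith
  have : l * α ^ 2 + l / (l - 1) * β ^ 2 - (α + β) ^ 2 = ((l - 1) * α - β) ^ 2 / (l - 1) := by
    field_simp; ring
  have h5 : 0 ≤ ((l - 1) * α - β) ^ 2 / (l - 1) := by positivity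
  linarith

theorem path_bound (hT : G.IsTree) (hG : ∀ v, (G.neighborSet v).Finite)
    (hμ : IsFreeIsing G θ μ) (h0 : 0 ≤ θ) (h1 : θ < 1) {l q : ℝ} (hl : 1 < l)
    (hq : l ^ 2 * θ ^ 2 < q) (o : V) :
    ∃ C, 0 ≤ C ∧ ∀ u k v, G.dist u v = k → ∃ c : V →₀ ℝ, (∀ z, 0 ≤ c z) ∧
      c.sum (fun z a => a * l ^ G.dist o z) ≤ C * q ^ k * l ^ G.dist o v ∧
      ∀ (B B' : Finset (V × ℕ)) (y y' : V × ℕ → ℝ), (∀ i, |y i| ≤ 1) → (∀ i, |y' i| ≤ 1) →
        (cov μ B y v u - cov μ B' y' v u) ^ 2 ≤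
          c.sum fun z a => a * (mag μ B y z - mag μ B' y' z) ^ 2 := by
  set L := 4 / (1 - θ) ^ 2 with hL
  have hL0 : 0 ≤ L := by positivity
  set a₀ := 2 * L ^ 2 * (l / (l - 1)) with ha₀
  have hl1 : 0 < l - 1 := by linarith
  have ha0 : 0 ≤ a₀ := by positivity
  have hgap : 0 < q - l ^ 2 * θ ^ 2 := by linarith
  have hθq : θ ^ 2 ≤ q := by nlinarith [one_le_pow₀ hl.le (n := 2), sq_nonneg θ]
  have hq0 : 0 ≤ q := (sq_nonneg θ).trans hθq
  set C := 4 + 2 * l * a₀ / (q - l ^ 2 * θ ^ 2) with hC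
  have hC1 : 0 ≤ 2 * l * a₀ / (q - l ^ 2 * θ ^ 2) := by positivity
  have hC2 : l ^ 2 * θ ^ 2 * C + 2 * l * a₀ ≤ C * q := by
    have : 2 * l * a₀ / (q - l ^ 2 * θ ^ 2) * (q - l ^ 2 * θ ^ 2) = 2 * l * a₀ :=
      div_mul_cancel₀ _ hgap.ne'
    nlinarith
  refine ⟨C, by linarith, fun u k => ?_⟩
  induction k with
  | zero =>
    intro v hv
    obtain rfl := hT.connected.dist_eq_zero_iff.1 hv
    refine ⟨Finsupp.single u 4, fun z => ?_, ?_, fun B B' y y' hy hy' => ?_⟩
    · rw [Finsupp.single_apply]; split_ifs <;> norm_num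
    · rw [Finsupp.sum_single_index (by simp), pow_zero, mul_one]
      gcongr; linarith
    · rw [Finsupp.sum_single_index (by simp), cov_self hy, cov_self hy']
      have b1 := abs_le.1 (mag_abs (μ := μ) (B := B) hy u)
      have b2 := abs_le.1 (mag_abs (μ := μ) (B := B') hy' u)
      set m := mag μ B y u
      set m' := mag μ B' y' u
      have : (m + m') ^ 2 ≤ 4 := by nlinarith [b1.1, b1.2, b2.1, b2.2]
      calc (1 - m ^ 2 - (1 - m' ^ 2)) ^ 2 = (m + m') ^ 2 * (m - m') ^ 2 := by ring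
        _ ≤ _ := by gcongr
  | succ k ih =>
    intro v hv
    obtain ⟨x, h2, h3, h4⟩ := exists_toward hT.connected (u := u) (v := v)
      (by rintro rfl; simp at hv)
    have hx : G.dist u x = k := by omega
    obtain ⟨c, c0, c1, c2⟩ := ih x hx
    have hsum : ∀ k' : V → ℝ, ((l * θ ^ 2) • c + (Finsupp.single v (a₀ * q ^ k) +
        Finsupp.single x (a₀ * q ^ k))).sum (fun z a => a * k' z) =
        l * θ ^ 2 * c.sum (fun z a => a * k' z) + a₀ * q ^ k * (k' v + k' x) := by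
      intro k'
      rw [Finsupp.sum_add_index' (by simp) (by intros; ring),
        Finsupp.sum_add_index' (by simp) (by intros; ring), Finsupp.sum_single_index (by simp),
        Finsupp.sum_single_index (by simp), Finsupp.sum_smul_index (by simp), Finsupp.mul_sum]
      simp only [mul_assoc]; ring
    refine ⟨(l * θ ^ 2) • c + (Finsupp.single v (a₀ * q ^ k) + Finsupp.single x (a₀ * q ^ k)),
      fun z => ?_, ?_, fun B B' y y' hy hy' => ?_⟩
    · simp only [Finsupp.add_apply, Finsupp.smul_apply, smul_eq_mul, Finsupp.single_apply]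
      have := c0 z
      split_ifs <;> positivity
    · rw [hsum fun z => l ^ G.dist o z]
      have d1 : l ^ G.dist o x ≤ l ^ G.dist o v * l := by
        rw [← pow_succ]; exact pow_le_pow_right₀ hl.le (dist_adj hT.connected o h2)
      have d2 : l ^ G.dist o v ≤ l ^ G.dist o v * l := le_mul_of_one_le_right (by positivity) hl.le
      calc _ ≤ l * θ ^ 2 * (C * q ^ k * (l ^ G.dist o v * l)) +
            a₀ * q ^ k * (l ^ G.dist o v * l + l ^ G.dist o v * l) := by
            gcongr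
            exact c1.trans (by gcongr)
        _ = (l ^ 2 * θ ^ 2 * C + 2 * l * a₀) * (q ^ k * l ^ G.dist o v) := by ring
        _ ≤ C * q * (q ^ k * l ^ G.dist o v) := by gcongr
        _ = _ := by ring
    · rw [hsum fun z => (mag μ B y z - mag μ B' y' z) ^ 2]
      obtain ⟨n, hn, e1, e2⟩ := regress_post (B := B) hT hG hμ h0 h1 hy h2 h4
      obtain ⟨n', hn', e1', e2'⟩ := regress_post (B := B') hT hG hμ h0 h1 hy' h2 h4
      have f1 := rK_lip (t' := mag μ B' y' x) h0 h1 hn hn' (mag_abs (μ := μ) (B := B) hy x)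
      rw [← e1, ← e1'] at f1
      have f2 := cov_abs (B := B') hT hG hμ h0 h1 hy' u k x hx
      have f3 := rK_bound h0 h1 hn
      have f4 := c2 B B' y y' hy hy'
      set δv := mag μ B y v - mag μ B' y' v
      set δx := mag μ B y x - mag μ B' y' x
      set α := rK θ n * (cov μ B y x u - cov μ B' y' x u)
      set β := (rK θ n - rK θ n') * cov μ B' y' x u
      have g0 : cov μ B y v u - cov μ B' y' v u = α + β := by rw [e2, e2']; ring
      have sqle : ∀ {a b : ℝ}, |a| ≤ b → a ^ 2 ≤ b ^ 2 := fun h => by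
        rw [← sq_abs]; exact pow_le_pow_left₀ (abs_nonneg _) h 2
      have g1 : α ^ 2 ≤ θ ^ 2 * c.sum fun z a => a * (mag μ B y z - mag μ B' y' z) ^ 2 := by
        rw [mul_pow]
        exact mul_le_mul (sqle f3) f4 (sq_nonneg _) (sq_nonneg _)
      have g2 : β ^ 2 ≤ (L * (|δv| + |δx|)) ^ 2 * q ^ k := by
        rw [mul_pow]
        refine mul_le_mul (sqle f1) ((sqle f2).trans ?_) (sq_nonneg _) (sq_nonneg _)
        rw [← pow_mul, mul_comm, pow_mul]
        exact pow_le_pow_left₀ (sq_nonneg _) hθq k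
      have g3 := abs_add_sq δv δx
      have g4 := young α β hl
      rw [g0]
      calc (α + β) ^ 2 ≤ l * α ^ 2 + l / (l - 1) * β ^ 2 := g4
        _ ≤ l * (θ ^ 2 * c.sum fun z a => a * (mag μ B y z - mag μ B' y' z) ^ 2) +
            l / (l - 1) * (L ^ 2 * (2 * (δv ^ 2 + δx ^ 2)) * q ^ k) := by
            gcongr
            refine g2.trans ?_
            rw [mul_pow]; gcongr
        _ = _ := by rw [ha₀]; ring

omit [IsProbabilityMeasure μ] in
lemma mem_ball_of_dist (hc : G.Connected) (o : V) (n : ℕ) :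
    ∀ z, G.dist o z ≤ n → z ∈ P143.ball G o n := by
  induction n with
  | zero =>
    intro z hz
    exact (hc.dist_eq_zero_iff.1 (Nat.le_zero.1 hz)).symm
  | succ n ih =>
    intro z hz
    by_cases h : o = z
    · exact P143.ball_mono o (Nat.zero_le _) h.symm
    · obtain ⟨x, h1, h2, _⟩ := exists_toward hc h
      exact P143.ball_adj (ih x (by omega)) h1

omit [IsProbabilityMeasure μ] in
theorem count_bound (hc : G.Connected) (hG : ∀ v, (G.neighborSet v).Finite) {d : ℕ}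
    (hd : ∀ v, (G.neighborSet v).ncard = d) {q : ℝ} (hq0 : 0 ≤ q) (hq : q * (d - 1) < 1) :
    ∃ K, 0 ≤ K ∧ ∀ (v : V) (D : Finset V), ∑ u ∈ D, q ^ G.dist u v ≤ K := by
  have hgap : 0 < 1 - q * (d - 1) := by linarith
  refine ⟨1 + q * d / (1 - q * (d - 1)), by positivity, fun v D => ?_⟩
  have key : ∀ u, u ≠ v → ∃ x, G.Adj x u ∧ G.dist v x + 1 = G.dist v u := fun u hu => by
    obtain ⟨x, h1, h2, _⟩ := exists_toward hc hu.symm
    exact ⟨x, h1, h2⟩
  choose! p hp using key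
  set n := D.sup (G.dist v)
  set E := (P143.ball_finite hG v n).toFinset.filter fun z => G.dist v z ≤ n
  have hE : ∀ z, z ∈ E ↔ G.dist v z ≤ n := fun z => by
    simp only [E, mem_filter, Set.Finite.mem_toFinset]
    exact ⟨fun h => h.2, fun h => ⟨mem_ball_of_dist hc v n z h, h⟩⟩
  have hv : v ∈ E := (hE v).2 (by simp)
  set S := ∑ u ∈ E.erase v, q ^ G.dist v u with hS
  have h1 : S = ∑ w ∈ E, ((E.erase v).filter fun u => p u = w).card * (q * q ^ G.dist v w) := by
    rw [hS, ← sum_fiberwise_of_maps_to (t := E) (g := p)]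
    · refine sum_congr rfl fun w _ => ?_
      rw [← nsmul_eq_mul, ← sum_const]
      refine sum_congr rfl fun u hu => ?_
      obtain ⟨g1, rfl⟩ := mem_filter.1 hu
      rw [← (hp u (mem_erase.1 g1).1).2, pow_succ']
    · intro u hu
      obtain ⟨g1, g2⟩ := mem_erase.1 hu
      have := (hp u g1).2
      rw [hE] at g2 ⊢; omega
  have hsub : ∀ w, ∀ u ∈ (E.erase v).filter (fun u => p u = w), u ∈ (hG w).toFinset ∧
      G.dist v u = G.dist v w + 1 := by
    intro w u hu
    obtain ⟨g1, rfl⟩ := mem_filter.1 hu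
    have := hp u (mem_erase.1 g1).1
    exact ⟨by simpa using this.1, this.2.symm⟩
  have hcard : ∀ w, (hG w).toFinset.card = d := fun w => by
    rw [← hd w, Set.ncard_eq_toFinset_card _ (hG w)]
  have h2 : (((E.erase v).filter fun u => p u = v).card : ℝ) ≤ d := by
    rw [← hcard v]
    exact_mod_cast card_le_card fun u hu => (hsub v u hu).1
  have h3 : ∀ w ∈ E.erase v, (((E.erase v).filter fun u => p u = w).card : ℝ) ≤ d - 1 := by
    intro w hw
    have g1 := hp w (mem_erase.1 hw).1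
    have g2 : p w ∈ (hG w).toFinset := by simpa using g1.1.symm
    have g3 : ((E.erase v).filter fun u => p u = w).card ≤ ((hG w).toFinset.erase (p w)).card :=
      card_le_card fun u hu => mem_erase.2 ⟨fun h => by
        have := (hsub w u hu).2
        rw [h] at this; omega, (hsub w u hu).1⟩
    have g4 := card_erase_add_one g2
    rw [hcard] at g4
    have : ((E.erase v).filter fun u => p u = w).card + 1 ≤ d := by omega
    have g5 : ((((E.erase v).filter fun u => p u = w).card + 1 : ℕ) : ℝ) ≤ d := by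
      exact_mod_cast this
    push_cast at g5; linarith
  have h4 : S ≤ q * d + q * (d - 1) * S := by
    calc S = _ := h1
      _ = ((E.erase v).filter fun u => p u = v).card * (q * q ^ G.dist v v) +
          ∑ w ∈ E.erase v, ((E.erase v).filter fun u => p u = w).card * (q * q ^ G.dist v w) :=
          (add_sum_erase _ _ hv).symm
      _ ≤ d * (q * q ^ G.dist v v) + ∑ w ∈ E.erase v, (d - 1) * (q * q ^ G.dist v w) := by
          gcongr with w hw
          exact h3 w hw
      _ = _ := by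
          rw [hS, mul_sum, SimpleGraph.dist_self, pow_zero]
          congr 1
          · ring
          · exact sum_congr rfl fun _ _ => by ring
  calc ∑ u ∈ D, q ^ G.dist u v ≤ ∑ u ∈ E, q ^ G.dist v u := by
        simp only [SimpleGraph.dist_comm (v := v)]
        exact sum_le_sum_of_subset_of_nonneg (fun u hu => (hE u).2 (le_sup hu))
          fun _ _ _ => by positivity
    _ = 1 + S := by rw [← add_sum_erase _ _ hv, SimpleGraph.dist_self, pow_zero]
    _ ≤ _ := by
        gcongr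
        rw [le_div_iff₀ hgap]; linarith

end Vale.Agent.P161
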